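import Mathlib
import Vale.Agent.Lib.Helper4.SurfaceCalculus

namespace Vale.Agent.Results.P205.InvariantTori

open scoped ContDiff
open Real Vale.Agent.Lib.Helper4

theorem periodic_pos_lower_bound (f : ℝ → ℝ) (L : ℝ) (hL : 0 < L) (hf : Continuous f)
    (hper : Function.Periodic f L) (hpos : ∀ x, 0 < f x) : ∃ δ > 0, ∀ x, δ ≤ f x := by
  obtain ⟨x0, _, hmin⟩ := (isCompact_Icc (a := (0 : ℝ)) (b := L)).exists_isMinOn
    (Set.nonempty_Icc.2 hL.le) hf.continuousOn
  refine ⟨f x0, hpos x0, fun x => ?_⟩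
  obtain ⟨y, hy, hxy⟩ := hper.exists_mem_Ico₀ hL x
  rw [hxy]
  exact hmin (Set.Ico_subset_Icc_self hy)

theorem periodic_upper_bound (f : ℝ → ℝ) (L : ℝ) (hL : 0 < L) (hf : Continuous f)
    (hper : Function.Periodic f L) : ∃ M, 0 ≤ M ∧ ∀ x, f x ≤ M := by
  obtain ⟨x0, _, hmax⟩ := (isCompact_Icc (a := (0 : ℝ)) (b := L)).exists_isMaxOn
    (Set.nonempty_Icc.2 hL.le) hf.continuousOn
  refine ⟨max (f x0) 0, le_max_right _ _, fun x => ?_⟩
  obtain ⟨y, hy, hxy⟩ := hper.exists_mem_Ico₀ hL x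
  rw [hxy]
  exact le_trans (hmax (Set.Ico_subset_Icc_self hy)) (le_max_left _ _)

theorem primitive_add_period (f : ℝ → ℝ) (L : ℝ) (hf : Continuous f)
    (hper : Function.Periodic f L) (x : ℝ) :
    ∫ t in (0 : ℝ)..(x + L), f t = (∫ t in (0 : ℝ)..x, f t) + ∫ t in (0 : ℝ)..L, f t := by
  have h1 : ∫ t in (0 : ℝ)..(x + L), f t
      = (∫ t in (0 : ℝ)..x, f t) + ∫ t in x..(x + L), f t :=
    (intervalIntegral.integral_add_adjacent_intervals (hf.intervalIntegrable _ _)
      (hf.intervalIntegrable _ _)).symm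
  have h2 : ∫ t in x..(x + L), f t = ∫ t in (0 : ℝ)..(0 + L), f t :=
    hper.intervalIntegral_add_eq x 0
  rw [h1, h2, zero_add]

/-- Every smooth metric E(u) du^2 + 2 F(u) du dv + G(u) dv^2 on the torus with periods L in u
and P in v, whose coefficients depend on u only and whose twist, the integral of F/G over a
period, is a rational multiple of P, is induced by a smooth doubly periodic map into Euclidean
four-space. -/
theorem result (E F G : ℝ → ℝ) (L P : ℝ) (hL : 0 < L) (hP : 0 < P)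
    (hE : ContDiff ℝ ((⊤ : ℕ∞) : WithTop ℕ∞) E) (hF : ContDiff ℝ ((⊤ : ℕ∞) : WithTop ℕ∞) F)
    (hG : ContDiff ℝ ((⊤ : ℕ∞) : WithTop ℕ∞) G)
    (hpos : ∀ x, 0 < E x ∧ 0 < E x * G x - F x ^ 2)
    (hEper : Function.Periodic E L) (hFper : Function.Periodic F L)
    (hGper : Function.Periodic G L)
    (htwist : ∃ (n : ℕ) (m : ℤ), 0 < n ∧
      (n : ℝ) * (∫ t in (0 : ℝ)..L, F t / G t) = (m : ℝ) * P) :
    ∃ Φ : ℝ × ℝ → EuclideanSpace ℝ (Fin 4), ContDiff ℝ ((⊤ : ℕ∞) : WithTop ℕ∞) Φ ∧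
      (∀ q : ℝ × ℝ, Φ (q.1 + L, q.2) = Φ q) ∧ (∀ q : ℝ × ℝ, Φ (q.1, q.2 + P) = Φ q) ∧
      ∀ q : ℝ × ℝ,
        inner ℝ (fderiv ℝ Φ q (1, 0)) (fderiv ℝ Φ q (1, 0)) = E q.1 ∧
        inner ℝ (fderiv ℝ Φ q (1, 0)) (fderiv ℝ Φ q (0, 1)) = F q.1 ∧
        inner ℝ (fderiv ℝ Φ q (0, 1)) (fderiv ℝ Φ q (0, 1)) = G q.1 := by
  obtain ⟨n, m, hn, hnm⟩ := htwist
  have hn1 : (1 : ℝ) ≤ n := by exact_mod_cast hn
  have hGpos : ∀ x, 0 < G x := by
    intro x
    obtain ⟨h1, h2⟩ := hpos x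
    by_contra h
    push Not at h
    nlinarith [sq_nonneg (F x)]
  set A : ℝ → ℝ := fun x => Real.sqrt (G x) with hA
  have hAsm : ContDiff ℝ ∞ A := hG.sqrt (fun x => (hGpos x).ne')
  set A' : ℝ → ℝ := deriv A with hA'
  have hA'sm : ContDiff ℝ ∞ A' := (contDiff_infty_iff_deriv.mp hAsm).2
  have hAderiv : ∀ x, HasDerivAt A (A' x) x :=
    fun x => ((contDiff_infty_iff_deriv.mp hAsm).1 x).hasDerivAt
  have hAsq : ∀ x, A x ^ 2 = G x := fun x => Real.sq_sqrt (hGpos x).le
  have hAper : Function.Periodic A L := by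
    intro x
    show Real.sqrt (G (x + L)) = Real.sqrt (G x)
    rw [hGper x]
  have hA'per : Function.Periodic A' L := by
    intro x
    have h1 : deriv (fun y => A (y + L)) x = deriv A (x + L) := deriv_comp_add_const A L x
    have h2 : (fun y => A (y + L)) = A := funext hAper
    rw [h2] at h1
    exact h1.symm
  set ψ : ℝ → ℝ := fun x => F x / G x with hψ
  have hψsm : ContDiff ℝ ∞ ψ := hF.div hG (fun x => (hGpos x).ne')
  have hψper : Function.Periodic ψ L := by
    intro x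
    show F (x + L) / G (x + L) = F x / G x
    rw [hFper x, hGper x]
  set φ : ℝ → ℝ := fun x => ∫ t in (0 : ℝ)..x, ψ t with hφ
  have hφsm : ContDiff ℝ ∞ φ := contDiff_primitive ψ hψsm 0
  have hφderiv : ∀ x, HasDerivAt φ (ψ x) x := by
    intro x
    have h1 := ((contDiff_infty_iff_deriv.mp hφsm).1 x).hasDerivAt
    have h2 : deriv φ x = ψ x := hψsm.continuous.deriv_integral ψ 0 x
    rwa [h2] at h1
  set τ : ℝ := ∫ t in (0 : ℝ)..L, ψ t with hτ
  have hφper : ∀ x, φ (x + L) = φ x + τ := primitive_add_period ψ L hψsm.continuous hψper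
  set D : ℝ → ℝ := fun x => E x - F x ^ 2 / G x with hD
  have hDsm : ContDiff ℝ ∞ D := hE.sub ((hF.pow 2).div hG (fun x => (hGpos x).ne'))
  have hDpos : ∀ x, 0 < D x := by
    intro x
    obtain ⟨h1, h2⟩ := hpos x
    have hg := hGpos x
    have : D x = (E x * G x - F x ^ 2) / G x := by
      rw [hD]; field_simp
    rw [this]; positivity
  have hDper : Function.Periodic D L := by
    intro x
    show E (x + L) - F (x + L) ^ 2 / G (x + L) = E x - F x ^ 2 / G x
    rw [hEper x, hFper x, hGper x]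
  obtain ⟨δ, hδ, hδD⟩ := periodic_pos_lower_bound D L hL hDsm.continuous hDper hDpos
  obtain ⟨M, hM0, hM⟩ := periodic_upper_bound (fun x => A' x ^ 2) L hL
    (hA'sm.continuous.pow 2) (fun x => by show A' (x + L) ^ 2 = A' x ^ 2; rw [hA'per x])
  obtain ⟨N, hN⟩ := exists_nat_gt (P ^ 2 * M / δ + 1)
  have hNM : P ^ 2 * M < ((N : ℝ) - 1) * δ := by
    have h1 : P ^ 2 * M / δ < (N : ℝ) - 1 := by linarith
    rwa [div_lt_iff₀ hδ] at h1
  have hN1 : (1 : ℝ) < N := by
    have : 0 ≤ P ^ 2 * M / δ := by positivity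
    linarith
  have hNpos : (0 : ℝ) < N := by linarith
  set c : ℝ := P / (2 * π * n * N) with hc
  have hden : 0 < 2 * π * (n : ℝ) * N := by positivity
  have hcpos : 0 < c := div_pos hP hden
  have hc2M : c ^ 2 * M < δ := by
    have key : c ^ 2 * M = P ^ 2 * M / (2 * π * n * N) ^ 2 := by
      rw [hc]; ring
    rw [key, div_lt_iff₀ (by positivity)]
    have h3 : (N : ℝ) ≤ 2 * π * n * N := by
      have : (1 : ℝ) ≤ 2 * π * n := by nlinarith [Real.pi_gt_three]
      nlinarith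
    have h4 : (N : ℝ) ≤ (2 * π * n * N) ^ 2 := by nlinarith
    nlinarith
  set ρ : ℝ → ℝ := fun x => D x - c ^ 2 * A' x ^ 2 with hρ
  have hρsm : ContDiff ℝ ∞ ρ := hDsm.sub (contDiff_const.mul (hA'sm.pow 2))
  have hρpos : ∀ x, 0 < ρ x := by
    intro x
    have h1 : c ^ 2 * A' x ^ 2 ≤ c ^ 2 * M := mul_le_mul_of_nonneg_left (hM x) (sq_nonneg c)
    have h2 := hδD x
    show 0 < D x - c ^ 2 * A' x ^ 2
    linarith
  have hρper : Function.Periodic ρ L := by
    intro x
    show D (x + L) - c ^ 2 * A' (x + L) ^ 2 = D x - c ^ 2 * A' x ^ 2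
    rw [hDper x, hA'per x]
  set r : ℝ → ℝ := fun x => Real.sqrt (ρ x) with hr
  have hrsm : ContDiff ℝ ∞ r := hρsm.sqrt (fun x => (hρpos x).ne')
  have hrpos : ∀ x, 0 < r x := fun x => Real.sqrt_pos.2 (hρpos x)
  have hrsq : ∀ x, r x ^ 2 = ρ x := fun x => Real.sq_sqrt (hρpos x).le
  have hrper : Function.Periodic r L := by
    intro x
    show Real.sqrt (ρ (x + L)) = Real.sqrt (ρ x)
    rw [hρper x]
  set S : ℝ → ℝ := fun x => ∫ t in (0 : ℝ)..x, r t with hS
  have hSsm : ContDiff ℝ ∞ S := contDiff_primitive r hrsm 0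
  have hSderiv : ∀ x, HasDerivAt S (r x) x := by
    intro x
    have h1 := ((contDiff_infty_iff_deriv.mp hSsm).1 x).hasDerivAt
    have h2 : deriv S x = r x := hrsm.continuous.deriv_integral r 0 x
    rwa [h2] at h1
  set Λ : ℝ := ∫ t in (0 : ℝ)..L, r t with hΛ
  have hΛpos : 0 < Λ :=
    intervalIntegral.intervalIntegral_pos_of_pos_on (hrsm.continuous.intervalIntegrable 0 L)
      (fun x _ => hrpos x) hL
  have hSper : ∀ x, S (x + L) = S x + Λ := primitive_add_period r L hrsm.continuous hrper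
  have hτc : τ / c = ((m * (N : ℤ) : ℤ) : ℝ) * (2 * π) := by
    rw [hc, div_div_eq_mul_div, div_eq_iff hP.ne']
    push_cast
    linear_combination (2 * π * (N : ℝ)) * hnm
  have hPc : P / c = ((n * N : ℕ) : ℝ) * (2 * π) := by
    rw [hc, div_div_eq_mul_div, div_eq_iff hP.ne']
    push_cast
    ring
  set Φ : ℝ × ℝ → EuclideanSpace ℝ (Fin 4) := fun q =>
    !₂[c * A q.1 * Real.cos ((q.2 + φ q.1) / c),
       c * A q.1 * Real.sin ((q.2 + φ q.1) / c),
       Λ / (2 * π) * Real.cos (2 * π * S q.1 / Λ),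
       Λ / (2 * π) * Real.sin (2 * π * S q.1 / Λ)] with hΦ
  have hΦ0 : ∀ q, Φ q 0 = c * A q.1 * Real.cos ((q.2 + φ q.1) / c) := fun q => rfl
  have hΦ1 : ∀ q, Φ q 1 = c * A q.1 * Real.sin ((q.2 + φ q.1) / c) := fun q => rfl
  have hΦ2 : ∀ q, Φ q 2 = Λ / (2 * π) * Real.cos (2 * π * S q.1 / Λ) := fun q => rfl
  have hΦ3 : ∀ q, Φ q 3 = Λ / (2 * π) * Real.sin (2 * π * S q.1 / Λ) := fun q => rfl
  have hΦsm : ContDiff ℝ ∞ Φ := by
    rw [contDiff_euclidean]
    intro i
    have h1 : ContDiff ℝ ∞ (fun q : ℝ × ℝ => A q.1) := hAsm.comp contDiff_fst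
    have h2 : ContDiff ℝ ∞ (fun q : ℝ × ℝ => φ q.1) := hφsm.comp contDiff_fst
    have h3 : ContDiff ℝ ∞ (fun q : ℝ × ℝ => 2 * π * S q.1 / Λ) :=
      (contDiff_const.mul (hSsm.comp contDiff_fst)).div_const Λ
    fin_cases i
    · exact (contDiff_const.mul h1).mul
        (Real.contDiff_cos.comp ((contDiff_snd.add h2).div_const c))
    · exact (contDiff_const.mul h1).mul
        (Real.contDiff_sin.comp ((contDiff_snd.add h2).div_const c))
    · exact contDiff_const.mul (Real.contDiff_cos.comp h3)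
    · exact contDiff_const.mul (Real.contDiff_sin.comp h3)
  refine ⟨Φ, hΦsm, ?_, ?_, ?_⟩
  · rintro ⟨x, y⟩
    have e1 : (y + φ (x + L)) / c = (y + φ x) / c + ((m * (N : ℤ) : ℤ) : ℝ) * (2 * π) := by
      rw [hφper x, ← hτc]; ring
    have e2 : 2 * π * S (x + L) / Λ = 2 * π * S x / Λ + 2 * π := by
      rw [hSper x]; field_simp
    ext i
    fin_cases i
    · show c * A (x + L) * Real.cos ((y + φ (x + L)) / c) = c * A x * Real.cos ((y + φ x) / c)
      rw [hAper x, e1, Real.cos_add_int_mul_two_pi]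
    · show c * A (x + L) * Real.sin ((y + φ (x + L)) / c) = c * A x * Real.sin ((y + φ x) / c)
      rw [hAper x, e1, Real.sin_add_int_mul_two_pi]
    · show Λ / (2 * π) * Real.cos (2 * π * S (x + L) / Λ)
        = Λ / (2 * π) * Real.cos (2 * π * S x / Λ)
      rw [e2, Real.cos_add_two_pi]
    · show Λ / (2 * π) * Real.sin (2 * π * S (x + L) / Λ)
        = Λ / (2 * π) * Real.sin (2 * π * S x / Λ)
      rw [e2, Real.sin_add_two_pi]
  · rintro ⟨x, y⟩
    have e1 : (y + P + φ x) / c = (y + φ x) / c + ((n * N : ℕ) : ℝ) * (2 * π) := by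
      rw [← hPc]; ring
    ext i
    fin_cases i
    · show c * A x * Real.cos ((y + P + φ x) / c) = c * A x * Real.cos ((y + φ x) / c)
      rw [e1, Real.cos_add_nat_mul_two_pi]
    · show c * A x * Real.sin ((y + P + φ x) / c) = c * A x * Real.sin ((y + φ x) / c)
      rw [e1, Real.sin_add_nat_mul_two_pi]
    · rfl
    · rfl
  rintro ⟨x, y⟩
  have hdiff : DifferentiableAt ℝ Φ (x, y) :=
    (hΦsm.differentiable (by simp)).differentiableAt
  have hcomp : ∀ i, DifferentiableAt ℝ (fun q => Φ q i) (x, y) :=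
    differentiableAt_euclidean.mp hdiff
  set θ : ℝ := (y + φ x) / c with hθ
  set σ : ℝ := 2 * π * S x / Λ with hσ
  have hx0' : (fderiv ℝ Φ (x, y) (1, 0)) 0 = c * A' x * Real.cos θ - A x * ψ x * Real.sin θ := by
    rw [fderiv_euclidean_apply Φ _ _ hdiff 0]
    apply fderiv_apply_one_zero _ x y _ (hcomp 0)
    show HasDerivAt (fun t => c * A t * Real.cos ((y + φ t) / c)) _ x
    have h1 : HasDerivAt (fun t => c * A t) (c * A' x) x := (hAderiv x).const_mul c
    have h2 : HasDerivAt (fun t => (y + φ t) / c) (ψ x / c) x :=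
      ((hφderiv x).const_add y).div_const c
    have h3 : HasDerivAt (fun t => c * A t * Real.cos ((y + φ t) / c))
        (c * A' x * Real.cos θ + c * A x * (-Real.sin θ * (ψ x / c))) x := h1.mul h2.cos
    have h4 : c * A' x * Real.cos θ + c * A x * (-Real.sin θ * (ψ x / c))
        = c * A' x * Real.cos θ - A x * ψ x * Real.sin θ := by
      field_simp
      ring
    rw [h4] at h3
    exact h3
  have hx1' : (fderiv ℝ Φ (x, y) (1, 0)) 1 = c * A' x * Real.sin θ + A x * ψ x * Real.cos θ := by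
    rw [fderiv_euclidean_apply Φ _ _ hdiff 1]
    apply fderiv_apply_one_zero _ x y _ (hcomp 1)
    show HasDerivAt (fun t => c * A t * Real.sin ((y + φ t) / c)) _ x
    have h1 : HasDerivAt (fun t => c * A t) (c * A' x) x := (hAderiv x).const_mul c
    have h2 : HasDerivAt (fun t => (y + φ t) / c) (ψ x / c) x :=
      ((hφderiv x).const_add y).div_const c
    have h3 : HasDerivAt (fun t => c * A t * Real.sin ((y + φ t) / c))
        (c * A' x * Real.sin θ + c * A x * (Real.cos θ * (ψ x / c))) x := h1.mul h2.sin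
    have h4 : c * A' x * Real.sin θ + c * A x * (Real.cos θ * (ψ x / c))
        = c * A' x * Real.sin θ + A x * ψ x * Real.cos θ := by
      field_simp
    rw [h4] at h3
    exact h3
  have hx2' : (fderiv ℝ Φ (x, y) (1, 0)) 2 = -(r x * Real.sin σ) := by
    rw [fderiv_euclidean_apply Φ _ _ hdiff 2]
    apply fderiv_apply_one_zero _ x y _ (hcomp 2)
    show HasDerivAt (fun t => Λ / (2 * π) * Real.cos (2 * π * S t / Λ)) _ x
    have h2 : HasDerivAt (fun t => 2 * π * S t / Λ) (2 * π * r x / Λ) x :=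
      ((hSderiv x).const_mul (2 * π)).div_const Λ
    have h3 : HasDerivAt (fun t => Λ / (2 * π) * Real.cos (2 * π * S t / Λ))
        (Λ / (2 * π) * (-Real.sin σ * (2 * π * r x / Λ))) x := h2.cos.const_mul (Λ / (2 * π))
    have h4 : Λ / (2 * π) * (-Real.sin σ * (2 * π * r x / Λ)) = -(r x * Real.sin σ) := by
      field_simp
    rw [h4] at h3
    exact h3
  have hx3' : (fderiv ℝ Φ (x, y) (1, 0)) 3 = r x * Real.cos σ := by
    rw [fderiv_euclidean_apply Φ _ _ hdiff 3]
    apply fderiv_apply_one_zero _ x y _ (hcomp 3)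
    show HasDerivAt (fun t => Λ / (2 * π) * Real.sin (2 * π * S t / Λ)) _ x
    have h2 : HasDerivAt (fun t => 2 * π * S t / Λ) (2 * π * r x / Λ) x :=
      ((hSderiv x).const_mul (2 * π)).div_const Λ
    have h3 : HasDerivAt (fun t => Λ / (2 * π) * Real.sin (2 * π * S t / Λ))
        (Λ / (2 * π) * (Real.cos σ * (2 * π * r x / Λ))) x := h2.sin.const_mul (Λ / (2 * π))
    have h4 : Λ / (2 * π) * (Real.cos σ * (2 * π * r x / Λ)) = r x * Real.cos σ := by
      field_simp
    rw [h4] at h3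
    exact h3
  have hy0' : (fderiv ℝ Φ (x, y) (0, 1)) 0 = - (A x * Real.sin θ) := by
    rw [fderiv_euclidean_apply Φ _ _ hdiff 0]
    apply fderiv_apply_zero_one _ x y _ (hcomp 0)
    show HasDerivAt (fun t => c * A x * Real.cos ((t + φ x) / c)) _ y
    have h2 : HasDerivAt (fun t => (t + φ x) / c) (1 / c) y :=
      ((hasDerivAt_id y).add_const (φ x)).div_const c
    have h3 : HasDerivAt (fun t => c * A x * Real.cos ((t + φ x) / c))
        (c * A x * (-Real.sin θ * (1 / c))) y := h2.cos.const_mul (c * A x)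
    have h4 : c * A x * (-Real.sin θ * (1 / c)) = - (A x * Real.sin θ) := by
      field_simp
    rw [h4] at h3
    exact h3
  have hy1' : (fderiv ℝ Φ (x, y) (0, 1)) 1 = A x * Real.cos θ := by
    rw [fderiv_euclidean_apply Φ _ _ hdiff 1]
    apply fderiv_apply_zero_one _ x y _ (hcomp 1)
    show HasDerivAt (fun t => c * A x * Real.sin ((t + φ x) / c)) _ y
    have h2 : HasDerivAt (fun t => (t + φ x) / c) (1 / c) y :=
      ((hasDerivAt_id y).add_const (φ x)).div_const c
    have h3 : HasDerivAt (fun t => c * A x * Real.sin ((t + φ x) / c))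
        (c * A x * (Real.cos θ * (1 / c))) y := h2.sin.const_mul (c * A x)
    have h4 : c * A x * (Real.cos θ * (1 / c)) = A x * Real.cos θ := by
      field_simp
    rw [h4] at h3
    exact h3
  have hy2' : (fderiv ℝ Φ (x, y) (0, 1)) 2 = 0 := by
    rw [fderiv_euclidean_apply Φ _ _ hdiff 2]
    apply fderiv_apply_zero_one _ x y _ (hcomp 2)
    show HasDerivAt (fun _ => Λ / (2 * π) * Real.cos (2 * π * S x / Λ)) _ y
    exact hasDerivAt_const y _
  have hy3' : (fderiv ℝ Φ (x, y) (0, 1)) 3 = 0 := by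
    rw [fderiv_euclidean_apply Φ _ _ hdiff 3]
    apply fderiv_apply_zero_one _ x y _ (hcomp 3)
    show HasDerivAt (fun _ => Λ / (2 * π) * Real.sin (2 * π * S x / Λ)) _ y
    exact hasDerivAt_const y _
  have hcs : Real.cos θ ^ 2 + Real.sin θ ^ 2 = 1 := Real.cos_sq_add_sin_sq θ
  have hcs2 : Real.cos σ ^ 2 + Real.sin σ ^ 2 = 1 := Real.cos_sq_add_sin_sq σ
  have hGx := hGpos x
  have hAψ : A x ^ 2 * ψ x = F x := by
    rw [hAsq x]; show G x * (F x / G x) = F x; field_simp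
  have hAψ2 : A x ^ 2 * ψ x ^ 2 = F x ^ 2 / G x := by
    rw [hAsq x]; show G x * (F x / G x) ^ 2 = F x ^ 2 / G x; field_simp
  have hρx : r x ^ 2 = E x - F x ^ 2 / G x - c ^ 2 * A' x ^ 2 := hrsq x
  refine ⟨?_, ?_, ?_⟩
  · rw [PiLp.inner_apply, Fin.sum_univ_four]
    simp only [hx0', hx1', hx2', hx3', RCLike.inner_apply, conj_trivial]
    show _ = E x
    have : (c * A' x * Real.cos θ - A x * ψ x * Real.sin θ)
          * (c * A' x * Real.cos θ - A x * ψ x * Real.sin θ)
        + (c * A' x * Real.sin θ + A x * ψ x * Real.cos θ)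
          * (c * A' x * Real.sin θ + A x * ψ x * Real.cos θ)
        + -(r x * Real.sin σ) * -(r x * Real.sin σ)
        + r x * Real.cos σ * (r x * Real.cos σ)
        = (c ^ 2 * A' x ^ 2 + A x ^ 2 * ψ x ^ 2) * (Real.cos θ ^ 2 + Real.sin θ ^ 2)
          + r x ^ 2 * (Real.cos σ ^ 2 + Real.sin σ ^ 2) := by ring
    rw [this, hcs, hcs2, hAψ2, hρx]
    ring
  · rw [PiLp.inner_apply, Fin.sum_univ_four]
    simp only [hx0', hx1', hx2', hx3', hy0', hy1', hy2', hy3', RCLike.inner_apply, conj_trivial]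
    show _ = F x
    have : -(A x * Real.sin θ) * (c * A' x * Real.cos θ - A x * ψ x * Real.sin θ)
        + A x * Real.cos θ * (c * A' x * Real.sin θ + A x * ψ x * Real.cos θ)
        + 0 * -(r x * Real.sin σ) + 0 * (r x * Real.cos σ)
        = (A x ^ 2 * ψ x) * (Real.cos θ ^ 2 + Real.sin θ ^ 2) := by ring
    rw [this, hcs, hAψ]
    ring
  · rw [PiLp.inner_apply, Fin.sum_univ_four]
    simp only [hy0', hy1', hy2', hy3', RCLike.inner_apply, conj_trivial]
    show _ = G x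
    have : -(A x * Real.sin θ) * -(A x * Real.sin θ)
        + A x * Real.cos θ * (A x * Real.cos θ) + 0 * 0 + 0 * 0
        = (A x ^ 2) * (Real.cos θ ^ 2 + Real.sin θ ^ 2) := by ring
    rw [this, hcs, hAsq x]
    ring

end Vale.Agent.Results.P205.InvariantTori
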