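import Mathlib
import Vale.Agent.Lib.Helper4.SurfaceCalculus

namespace Vale.Agent.Results.P205.InvariantToriAllTwists

open scoped ContDiff
open Set Filter Topology Real Vale.Agent.Lib.Helper4

/-- A two-parameter intermediate value statement: the first equation is solved for the second
variable by monotonicity, the second equation then by the intermediate value theorem. -/
theorem nested_ivt (A B : ℝ → ℝ → ℝ) (hA : Continuous (Function.uncurry A))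
    (hB : Continuous (Function.uncurry B)) (s₁ a b : ℝ) (hs₁ : 0 ≤ s₁) (hab : a ≤ b)
    (As Bs : ℝ)
    (hmono : ∀ s ∈ Icc 0 s₁, StrictMonoOn (A s) (Icc a b))
    (hlo : ∀ s ∈ Icc 0 s₁, A s a ≤ As) (hhi : ∀ s ∈ Icc 0 s₁, As ≤ A s b)
    (h0 : ∀ p ∈ Icc a b, A 0 p = As → B 0 p ≤ Bs)
    (h1 : ∀ p ∈ Icc a b, A s₁ p = As → Bs ≤ B s₁ p) :
    ∃ s ∈ Icc 0 s₁, ∃ p ∈ Icc a b, A s p = As ∧ B s p = Bs := by
  have hAs : ∀ s, Continuous (A s) := fun s =>
    hA.comp (Continuous.prodMk continuous_const continuous_id)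
  have hAp : ∀ p, Continuous (fun s => A s p) := fun p =>
    hA.comp (Continuous.prodMk continuous_id continuous_const)
  have hex : ∀ s ∈ Icc 0 s₁, ∃ p ∈ Icc a b, A s p = As := by
    intro s hs
    have := intermediate_value_Icc hab (hAs s).continuousOn ⟨hlo s hs, hhi s hs⟩
    obtain ⟨p, hp, hpe⟩ := this
    exact ⟨p, hp, hpe⟩
  classical
  set T : ℝ → ℝ := fun s => if hs : s ∈ Icc 0 s₁ then Classical.choose (hex s hs) else a with hT
  have hTmem : ∀ s ∈ Icc 0 s₁, T s ∈ Icc a b ∧ A s (T s) = As := by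
    intro s hs
    have := Classical.choose_spec (hex s hs)
    simp only [hT, dif_pos hs]
    exact this
  have hTcont : ContinuousOn T (Icc 0 s₁) := by
    intro s₀ hs₀
    obtain ⟨hm₀, he₀⟩ := hTmem s₀ hs₀
    show Tendsto T (𝓝[Icc 0 s₁] s₀) (𝓝 (T s₀))
    rw [tendsto_order]
    constructor
    · intro a' ha'
      by_cases hcase : a' < a
      · filter_upwards [self_mem_nhdsWithin] with s hs
        exact lt_of_lt_of_le hcase (hTmem s hs).1.1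
      · push Not at hcase
        have hmem' : a' ∈ Icc a b := ⟨hcase, le_trans ha'.le hm₀.2⟩
        have hlt : A s₀ a' < As := by
          rw [← he₀]
          exact hmono s₀ hs₀ hmem' hm₀ ha'
        have hev : ∀ᶠ s in 𝓝[Icc 0 s₁] s₀, A s a' < As :=
          ((hAp a').continuousAt.tendsto.mono_left nhdsWithin_le_nhds).eventually
            (gt_mem_nhds hlt)
        filter_upwards [hev, self_mem_nhdsWithin] with s hs hsI
        by_contra hcon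
        push Not at hcon
        obtain ⟨hm, he⟩ := hTmem s hsI
        have := (hmono s hsI).monotoneOn hm hmem' hcon
        rw [he] at this
        exact absurd hs (not_lt.2 this)
    · intro b' hb'
      by_cases hcase : b < b'
      · filter_upwards [self_mem_nhdsWithin] with s hs
        exact lt_of_le_of_lt (hTmem s hs).1.2 hcase
      · push Not at hcase
        have hmem' : b' ∈ Icc a b := ⟨le_trans hm₀.1 hb'.le, hcase⟩
        have hlt : As < A s₀ b' := by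
          rw [← he₀]
          exact hmono s₀ hs₀ hm₀ hmem' hb'
        have hev : ∀ᶠ s in 𝓝[Icc 0 s₁] s₀, As < A s b' :=
          ((hAp b').continuousAt.tendsto.mono_left nhdsWithin_le_nhds).eventually
            (lt_mem_nhds hlt)
        filter_upwards [hev, self_mem_nhdsWithin] with s hs hsI
        by_contra hcon
        push Not at hcon
        obtain ⟨hm, he⟩ := hTmem s hsI
        have := (hmono s hsI).monotoneOn hmem' hm hcon
        rw [he] at this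
        exact absurd hs (not_lt.2 this)
  have hH : ContinuousOn (fun s => B s (T s)) (Icc 0 s₁) := by
    have h2 : ContinuousOn (fun s => (s, T s)) (Icc 0 s₁) :=
      continuousOn_id.prodMk hTcont
    exact hB.comp_continuousOn h2
  have hend0 : B 0 (T 0) ≤ Bs := by
    obtain ⟨hm, he⟩ := hTmem 0 ⟨le_rfl, hs₁⟩
    exact h0 _ hm he
  have hend1 : Bs ≤ B s₁ (T s₁) := by
    obtain ⟨hm, he⟩ := hTmem s₁ ⟨hs₁, le_rfl⟩
    exact h1 _ hm he
  obtain ⟨s, hs, hse⟩ := intermediate_value_Icc hs₁ hH ⟨hend0, hend1⟩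
  obtain ⟨hm, he⟩ := hTmem s hs
  exact ⟨s, hs, T s, hm, he, hse⟩

theorem periodic_pos_lower_bound (f : ℝ → ℝ) (L : ℝ) (hL : 0 < L) (hf : Continuous f)
    (hper : Function.Periodic f L) (hpos : ∀ x, 0 < f x) : ∃ δ > 0, ∀ x, δ ≤ f x := by
  obtain ⟨x0, _, hmin⟩ := (isCompact_Icc (a := (0 : ℝ)) (b := L)).exists_isMinOn
    (Set.nonempty_Icc.2 hL.le) hf.continuousOn
  refine ⟨f x0, hpos x0, fun x => ?_⟩
  obtain ⟨y, hy, hxy⟩ := hper.exists_mem_Ico₀ hL x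
  rw [hxy]
  exact hmin (Set.Ico_subset_Icc_self hy)

theorem periodic_upper_bound (f : ℝ → ℝ) (L : ℝ) (hL : 0 < L) (hf : Continuous f)
    (hper : Function.Periodic f L) : ∃ M, 0 ≤ M ∧ ∀ x, f x ≤ M := by
  obtain ⟨x0, _, hmax⟩ := (isCompact_Icc (a := (0 : ℝ)) (b := L)).exists_isMaxOn
    (Set.nonempty_Icc.2 hL.le) hf.continuousOn
  refine ⟨max (f x0) 0, le_max_right _ _, fun x => ?_⟩
  obtain ⟨y, hy, hxy⟩ := hper.exists_mem_Ico₀ hL x
  rw [hxy]
  exact le_trans (hmax (Set.Ico_subset_Icc_self hy)) (le_max_left _ _)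

theorem int_le_const (φ : ℝ → ℝ) (L M : ℝ) (hL : 0 ≤ L) (hφ : Continuous φ)
    (h : ∀ u ∈ Icc 0 L, φ u ≤ M) : ∫ u in (0:ℝ)..L, φ u ≤ M * L := by
  have h1 := intervalIntegral.integral_mono_on hL
    (hφ.intervalIntegrable (μ := MeasureTheory.volume) 0 L)
    (intervalIntegrable_const (c := M)) h
  rw [intervalIntegral.integral_const] at h1
  simpa [mul_comm] using h1

theorem int_ge_sub (φ : ℝ → ℝ) (L a b m : ℝ) (h0a : 0 ≤ a) (hab : a ≤ b) (hbL : b ≤ L)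
    (hφ : Continuous φ) (hnn : ∀ u ∈ Icc 0 L, 0 ≤ φ u) (hm : ∀ u ∈ Icc a b, m ≤ φ u) :
    m * (b - a) ≤ ∫ u in (0:ℝ)..L, φ u := by
  have hi : ∀ x y : ℝ, IntervalIntegrable φ MeasureTheory.volume x y :=
    fun x y => hφ.intervalIntegrable x y
  have e1 : ∫ u in (0:ℝ)..L, φ u
      = (∫ u in (0:ℝ)..a, φ u) + (∫ u in a..b, φ u) + ∫ u in b..L, φ u := by
    rw [intervalIntegral.integral_add_adjacent_intervals (hi 0 a) (hi a b),
      intervalIntegral.integral_add_adjacent_intervals (hi 0 b) (hi b L)]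
  have e2 : 0 ≤ ∫ u in (0:ℝ)..a, φ u :=
    intervalIntegral.integral_nonneg h0a (fun u hu => hnn u ⟨hu.1, by linarith [hu.2]⟩)
  have e3 : 0 ≤ ∫ u in b..L, φ u :=
    intervalIntegral.integral_nonneg hbL (fun u hu => hnn u ⟨by linarith [hu.1], hu.2⟩)
  have e4 : m * (b - a) ≤ ∫ u in a..b, φ u := by
    have h1 := intervalIntegral.integral_mono_on hab (intervalIntegrable_const (c := m))
      (hi a b) hm
    rw [intervalIntegral.integral_const] at h1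
    simpa [mul_comm] using h1
  linarith

theorem choose_k (P κ M qmin : ℝ) (hP : 0 < P) (hκ : 0 < κ) (hM : 0 ≤ M) (hq : 0 < qmin) :
    ∃ k : ℕ, 0 < k ∧ (P / (2 * π * k)) ^ 2 * M ≤ qmin / 2 ∧ P / k ≤ κ / 4 := by
  obtain ⟨k, hk⟩ := exists_nat_gt (max (4 * P / κ) (2 * P ^ 2 * (M + 1) / qmin) + 1)
  have hk0 : max (4 * P / κ) (2 * P ^ 2 * (M + 1) / qmin) < k :=
    lt_of_le_of_lt (le_add_of_nonneg_right zero_le_one) hk
  have hk1 : 4 * P / κ < k := lt_of_le_of_lt (le_max_left _ _) hk0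
  have hk2 : 2 * P ^ 2 * (M + 1) / qmin + 1 < k :=
    lt_of_le_of_lt (add_le_add_left (le_max_right _ _) 1) hk
  have hkpos : (0:ℝ) < k := by
    have : 0 ≤ 4 * P / κ := by positivity
    linarith
  have hk1' : (1:ℝ) ≤ k := by
    have : 0 ≤ 2 * P ^ 2 * (M + 1) / qmin := by positivity
    linarith
  have hkN : 0 < k := by exact_mod_cast hkpos
  refine ⟨k, hkN, ?_, ?_⟩
  · have hcpos : 0 < P / (2 * π * k) := by positivity
    have h1 : P / (2 * π * k) ≤ P / k := by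
      apply div_le_div_of_nonneg_left hP.le hkpos
      have h2π : (1:ℝ) ≤ 2 * π := by linarith [Real.pi_gt_three]
      calc (k:ℝ) = 1 * k := (one_mul _).symm
        _ ≤ 2 * π * k := mul_le_mul_of_nonneg_right h2π hkpos.le
    have h2 : (P / (2 * π * k)) ^ 2 ≤ P ^ 2 / k := by
      have h3 : (P / (2 * π * k)) ^ 2 ≤ (P / k) ^ 2 := pow_le_pow_left₀ hcpos.le h1 2
      have h4 : (P / k) ^ 2 ≤ P ^ 2 / k := by
        rw [div_pow]
        apply div_le_div_of_nonneg_left (by positivity) hkpos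
        rw [sq]
        exact le_mul_of_one_le_left hkpos.le hk1'
      linarith
    have h5 : 2 * P ^ 2 * (M + 1) / qmin < k := by linarith
    rw [div_lt_iff₀ hq] at h5
    have h6 : P ^ 2 / k * M ≤ qmin / 2 := by
      rw [div_mul_eq_mul_div, div_le_iff₀ hkpos]
      have := sq_nonneg P
      linarith
    calc (P / (2 * π * k)) ^ 2 * M ≤ P ^ 2 / k * M := mul_le_mul_of_nonneg_right h2 hM
      _ ≤ qmin / 2 := h6
  · rw [div_lt_iff₀ hκ] at hk1
    rw [div_le_iff₀ hkpos]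
    linarith

theorem choose_targets (P κ Alo τ : ℝ) (k : ℕ) (hk : 0 < k) (hP : 0 < P)
    (hPk : P / k ≤ κ / 4) :
    ∃ m₁ m₂ : ℤ, Alo ≤ m₁ * P / k - τ ∧ κ / 4 ≤ τ - m₂ * P / k ∧ τ - m₂ * P / k ≤ κ / 2 := by
  have hkpos : (0:ℝ) < k := by exact_mod_cast hk
  refine ⟨⌈(Alo + τ) * k / P⌉, ⌊(τ - κ / 4) * k / P⌋, ?_, ?_, ?_⟩
  · have h1 : (Alo + τ) * k / P ≤ (⌈(Alo + τ) * k / P⌉ : ℝ) := Int.le_ceil _
    rw [div_le_iff₀ hP] at h1
    have h2 : Alo + τ ≤ (⌈(Alo + τ) * k / P⌉ : ℝ) * P / k := by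
      rw [le_div_iff₀ hkpos]
      exact h1
    linarith
  · have h1 : ((⌊(τ - κ / 4) * k / P⌋ : ℤ) : ℝ) ≤ (τ - κ / 4) * k / P := Int.floor_le _
    rw [le_div_iff₀ hP] at h1
    have h2 : ((⌊(τ - κ / 4) * k / P⌋ : ℤ) : ℝ) * P / k ≤ τ - κ / 4 := by
      rw [div_le_iff₀ hkpos]
      exact h1
    linarith
  · have h1 : (τ - κ / 4) * k / P < ((⌊(τ - κ / 4) * k / P⌋ : ℤ) : ℝ) + 1 :=
      Int.lt_floor_add_one _
    rw [div_lt_iff₀ hP] at h1
    have h2 : τ - κ / 4 < ((⌊(τ - κ / 4) * k / P⌋ : ℤ) : ℝ) * P / k + P / k := by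
      rw [← add_div, lt_div_iff₀ hkpos]
      linarith
    linarith

theorem exists_tanc (β₂ : ℝ) (h1 : π / 6 ≤ β₂) (h2 : β₂ < π / 2) :
    ∃ tanc : ℝ → ℝ, Continuous tanc ∧ (∀ x, 0 < tanc x) ∧
      (∀ x, π / 6 ≤ x → x ≤ β₂ → tanc x = Real.tan x) := by
  have hclc : Continuous (fun x : ℝ => max (π / 6) (min β₂ x)) :=
    continuous_const.max (continuous_const.min continuous_id)
  have hclmem : ∀ x : ℝ, π / 6 ≤ max (π / 6) (min β₂ x) ∧ max (π / 6) (min β₂ x) ≤ β₂ :=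
    fun x => ⟨le_max_left _ _, max_le h1 (min_le_left _ _)⟩
  refine ⟨fun x => Real.tan (max (π / 6) (min β₂ x)), ?_, ?_, ?_⟩
  · exact Real.continuousOn_tan_Ioo.comp_continuous hclc (fun x =>
      ⟨by linarith [Real.pi_pos, (hclmem x).1], by linarith [(hclmem x).2]⟩)
  · intro x
    exact Real.tan_pos_of_pos_of_lt_pi_div_two (by linarith [Real.pi_pos, (hclmem x).1])
      (by linarith [(hclmem x).2])
  · intro x hx1 hx2
    show Real.tan (max (π / 6) (min β₂ x)) = Real.tan x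
    rw [min_eq_right hx2, max_eq_right hx1]

theorem arg_mem (g : ℝ → ℝ) (hg01 : ∀ u, 0 ≤ g u ∧ g u ≤ 1) (β₁ β₂ s₁ s p : ℝ)
    (hs₁ : s₁ = β₁ - π / 6) (hs : s ∈ Icc 0 s₁) (hp : p ∈ Icc β₁ β₂) (u : ℝ) :
    π / 6 ≤ p - s * (1 - g u) ∧ p - s * (1 - g u) ≤ p := by
  obtain ⟨h0, h1⟩ := hg01 u
  have h2 : 0 ≤ s * (1 - g u) := mul_nonneg hs.1 (by linarith)
  have h3 : s * (1 - g u) ≤ s * 1 := mul_le_mul_of_nonneg_left (by linarith) hs.1
  constructor
  · linarith [hs.2, hp.1]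
  · linarith

theorem cont_param (Qf : ℝ → ℝ → ℝ) (hQ : Continuous (Function.uncurry Qf)) (g w : ℝ → ℝ)
    (hg : Continuous g) (hw : Continuous w) (L : ℝ) :
    Continuous (Function.uncurry
      (fun s p => ∫ u in (0:ℝ)..L, Qf s u * w (p - s * (1 - g u)))) := by
  have hj : Continuous (Function.uncurry
      (fun (x : ℝ × ℝ) (u : ℝ) => Qf x.1 u * w (x.2 - x.1 * (1 - g u)))) := by
    have h1 : Continuous (fun y : (ℝ × ℝ) × ℝ => Qf y.1.1 y.2) :=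
      hQ.comp (Continuous.prodMk (continuous_fst.comp continuous_fst) continuous_snd)
    have h2 : Continuous (fun y : (ℝ × ℝ) × ℝ => y.1.2 - y.1.1 * (1 - g y.2)) := by fun_prop
    exact h1.mul (hw.comp h2)
  exact intervalIntegral.continuous_parametric_intervalIntegral_of_continuous' hj 0 L

theorem A_strictMono (φ : ℝ → ℝ) (hφ : Continuous φ) (L : ℝ) (hL : 0 < L)
    (hφpos : ∀ u, 0 < φ u) (g tanc : ℝ → ℝ) (hg : Continuous g)
    (hg01 : ∀ u, 0 ≤ g u ∧ g u ≤ 1) (htc : Continuous tanc)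
    (β₁ β₂ s₁ s : ℝ) (hβ₂ : β₂ < π / 2)
    (htan : ∀ x, π / 6 ≤ x → x ≤ β₂ → tanc x = Real.tan x)
    (hs₁ : s₁ = β₁ - π / 6) (hs : s ∈ Icc 0 s₁) :
    StrictMonoOn (fun p => ∫ u in (0:ℝ)..L, φ u * tanc (p - s * (1 - g u))) (Icc β₁ β₂) := by
  intro p hp p' hp' hlt
  have hc : ∀ r : ℝ, Continuous (fun u => φ u * tanc (r - s * (1 - g u))) := by
    intro r
    exact hφ.mul (htc.comp (by fun_prop))
  have key : ∀ u, φ u * tanc (p - s * (1 - g u)) < φ u * tanc (p' - s * (1 - g u)) := by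
    intro u
    obtain ⟨a1, a2⟩ := arg_mem g hg01 β₁ β₂ s₁ s p hs₁ hs hp u
    obtain ⟨b1, b2⟩ := arg_mem g hg01 β₁ β₂ s₁ s p' hs₁ hs hp' u
    rw [htan _ a1 (le_trans a2 hp.2), htan _ b1 (le_trans b2 hp'.2)]
    apply mul_lt_mul_of_pos_left _ (hφpos u)
    apply Real.strictMonoOn_tan
    · exact ⟨by linarith [Real.pi_pos], by linarith [hp.2]⟩
    · exact ⟨by linarith [Real.pi_pos], by linarith [hp'.2]⟩
    · linarith
  show (∫ u in (0:ℝ)..L, φ u * tanc (p - s * (1 - g u)))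
    < ∫ u in (0:ℝ)..L, φ u * tanc (p' - s * (1 - g u))
  exact intervalIntegral.integral_lt_integral_of_continuousOn_of_le_of_exists_lt hL
    (hc p).continuousOn (hc p').continuousOn (fun u _ => (key u).le)
    ⟨L / 2, ⟨by linarith, by linarith⟩, key (L / 2)⟩

theorem A_lo (φ : ℝ → ℝ) (hφ : Continuous φ) (L Qup : ℝ) (hL : 0 < L)
    (hφ0 : ∀ u, 0 ≤ φ u) (hφup : ∀ u, φ u ≤ Qup) (g tanc : ℝ → ℝ) (hg : Continuous g)
    (hg01 : ∀ u, 0 ≤ g u ∧ g u ≤ 1) (htc : Continuous tanc)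
    (β₁ β₂ s₁ s : ℝ) (hβ₁₂ : β₁ ≤ β₂) (hβ₂ : β₂ < π / 2)
    (htan : ∀ x, π / 6 ≤ x → x ≤ β₂ → tanc x = Real.tan x)
    (hs₁ : s₁ = β₁ - π / 6) (hs : s ∈ Icc 0 s₁) :
    ∫ u in (0:ℝ)..L, φ u * tanc (β₁ - s * (1 - g u)) ≤ Qup * Real.tan β₁ * L := by
  apply int_le_const (fun u => φ u * tanc (β₁ - s * (1 - g u))) L _ hL.le
    (hφ.mul (htc.comp (by fun_prop)))
  intro u _
  show φ u * tanc (β₁ - s * (1 - g u)) ≤ Qup * Real.tan β₁
  obtain ⟨a1, a2⟩ := arg_mem g hg01 β₁ β₂ s₁ s β₁ hs₁ hs ⟨le_rfl, hβ₁₂⟩ u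
  rw [htan _ a1 (le_trans a2 hβ₁₂)]
  have hmono : Real.tan (β₁ - s * (1 - g u)) ≤ Real.tan β₁ :=
    Real.strictMonoOn_tan.monotoneOn ⟨by linarith [Real.pi_pos], by linarith⟩
      ⟨by linarith [Real.pi_pos], by linarith⟩ a2
  have hnn : 0 ≤ Real.tan (β₁ - s * (1 - g u)) :=
    Real.tan_nonneg_of_nonneg_of_le_pi_div_two (by linarith [Real.pi_pos]) (by linarith)
  exact mul_le_mul (hφup u) hmono hnn (le_trans (hφ0 u) (hφup u))

theorem A_hi (φ : ℝ → ℝ) (hφ : Continuous φ) (L clo : ℝ) (hL : 0 < L) (hclo : 0 ≤ clo)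
    (hφlo : ∀ u, clo ≤ φ u) (g tanc : ℝ → ℝ) (hg : Continuous g)
    (htc : Continuous tanc) (htcpos : ∀ x, 0 < tanc x)
    (hg1 : ∀ u ∈ Icc (L / 3) (L / 2), g u = 1)
    (β₁ β₂ s₁ s : ℝ) (hβ₁₂ : β₁ ≤ β₂) (hβ₂ : β₂ < π / 2)
    (htan : ∀ x, π / 6 ≤ x → x ≤ β₂ → tanc x = Real.tan x)
    (hs₁ : s₁ = β₁ - π / 6) (hs : s ∈ Icc 0 s₁) :
    clo * Real.tan β₂ * (L / 2 - L / 3)
      ≤ ∫ u in (0:ℝ)..L, φ u * tanc (β₂ - s * (1 - g u)) := by
  have hβ6 : π / 6 ≤ β₂ := by linarith [hs.1, hs.2]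
  apply int_ge_sub (fun u => φ u * tanc (β₂ - s * (1 - g u))) L (L / 3) (L / 2) _
    (by linarith) (by linarith) (by linarith) (hφ.mul (htc.comp (by fun_prop)))
  · intro u _
    exact mul_nonneg (le_trans hclo (hφlo u)) (htcpos _).le
  · intro u hu
    show clo * Real.tan β₂ ≤ φ u * tanc (β₂ - s * (1 - g u))
    rw [hg1 u hu, sub_self, mul_zero, sub_zero, htan _ hβ6 le_rfl]
    have hnn : 0 ≤ Real.tan β₂ :=
      Real.tan_nonneg_of_nonneg_of_le_pi_div_two (by linarith [Real.pi_pos]) hβ₂.le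
    exact mul_le_mul_of_nonneg_right (hφlo u) hnn

theorem h0_alg (I₀ T As Iup κ Bs : ℝ) (hI : I₀ ≤ Iup) (hT : 0 < T) (hAs : 0 < As)
    (h : I₀ * T = As) (hA : 4 * Iup ^ 2 ≤ κ * As) (hB : κ / 4 ≤ Bs) : I₀ * T⁻¹ ≤ Bs := by
  have hI0 : 0 < I₀ := by
    by_contra hcon
    push Not at hcon
    have : I₀ * T ≤ 0 := mul_nonpos_of_nonpos_of_nonneg hcon hT.le
    linarith
  rw [← div_eq_mul_inv, div_le_iff₀ hT]
  have h1 : I₀ ^ 2 ≤ Iup ^ 2 := pow_le_pow_left₀ hI0.le hI 2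
  have h2 : κ / 4 * As ≤ Bs * As := mul_le_mul_of_nonneg_right hB hAs.le
  have h3 : I₀ * I₀ ≤ Bs * T * I₀ := by
    rw [show Bs * T * I₀ = Bs * (I₀ * T) by ring, h]
    have : I₀ * I₀ = I₀ ^ 2 := (sq I₀).symm
    linarith
  exact le_of_mul_le_mul_right h3 hI0

theorem B_one (φ : ℝ → ℝ) (hφ : Continuous φ) (L clo : ℝ) (hL : 0 < L) (hclo : 0 ≤ clo)
    (hφlo : ∀ u, clo ≤ φ u) (g tanc : ℝ → ℝ) (hg : Continuous g)
    (htc : Continuous tanc) (htcpos : ∀ x, 0 < tanc x)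
    (hg0 : ∀ u ∈ Icc 0 (L / 6), g u = 0)
    (β₁ β₂ s₁ p : ℝ) (hβ₂ : β₂ < π / 2) (hβ₁ : π / 3 ≤ β₁)
    (htan : ∀ x, π / 6 ≤ x → x ≤ β₂ → tanc x = Real.tan x)
    (hs₁ : s₁ = β₁ - π / 6) (hp : p ∈ Icc β₁ β₂) :
    clo / 2 * (L / 6 - 0)
      ≤ ∫ u in (0:ℝ)..L, φ u * (tanc (p - s₁ * (1 - g u)))⁻¹ := by
  have hcinv : Continuous (fun x => (tanc x)⁻¹) := htc.inv₀ (fun x => (htcpos x).ne')
  apply int_ge_sub (fun u => φ u * (tanc (p - s₁ * (1 - g u)))⁻¹) L 0 (L / 6) _ le_rfl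
    (by linarith) (by linarith) (hφ.mul (hcinv.comp (by fun_prop)))
  · intro u _
    exact mul_nonneg (le_trans hclo (hφlo u)) (inv_pos.2 (htcpos _)).le
  · intro u hu
    show clo / 2 ≤ φ u * (tanc (p - s₁ * (1 - g u)))⁻¹
    rw [hg0 u hu, sub_zero, mul_one]
    have e1 : π / 6 ≤ p - s₁ := by linarith [hp.1]
    have e2 : p - s₁ ≤ π / 3 := by linarith [hp.2]
    rw [htan _ e1 (by linarith [hp.2, Real.pi_pos])]
    have hmono : Real.tan (p - s₁) ≤ Real.tan (π / 3) :=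
      Real.strictMonoOn_tan.monotoneOn ⟨by linarith [Real.pi_pos], by linarith [Real.pi_pos]⟩
        ⟨by linarith [Real.pi_pos], by linarith [Real.pi_pos]⟩ e2
    rw [Real.tan_pi_div_three] at hmono
    have h3 : Real.sqrt 3 ≤ 2 := Real.sqrt_le_iff.2 ⟨by norm_num, by norm_num⟩
    have hpos : 0 < Real.tan (p - s₁) :=
      Real.tan_pos_of_pos_of_lt_pi_div_two (by linarith [Real.pi_pos])
        (by linarith [Real.pi_pos])
    have hinv : (1:ℝ) / 2 ≤ (Real.tan (p - s₁))⁻¹ := by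
      rw [one_div]
      exact inv_anti₀ hpos (le_trans hmono h3)
    calc clo / 2 = clo * (1 / 2) := by ring
      _ ≤ φ u * (Real.tan (p - s₁))⁻¹ := mul_le_mul (hφlo u) hinv (by norm_num)
          (le_trans hclo (hφlo u))

theorem core (Qf : ℝ → ℝ → ℝ) (hQ : Continuous (Function.uncurry Qf)) (g : ℝ → ℝ)
    (hg : Continuous g) (hg01 : ∀ u, 0 ≤ g u ∧ g u ≤ 1) (L : ℝ) (hL : 0 < L)
    (hg0 : ∀ u ∈ Icc 0 (L / 6), g u = 0) (hg1 : ∀ u ∈ Icc (L / 3) (L / 2), g u = 1)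
    (clo Qup : ℝ) (hclo : 0 < clo)
    (hQb : ∀ s ∈ Icc (0:ℝ) 2, ∀ u, clo ≤ Qf s u ∧ Qf s u ≤ Qup)
    (As Bs : ℝ) (hAs1 : 2 * (L * Qup) ≤ As) (hAs2 : 4 * (L * Qup) ^ 2 ≤ clo * L / 6 * As)
    (hBs1 : clo * L / 6 / 4 ≤ Bs) (hBs2 : Bs ≤ clo * L / 6 / 2) :
    ∃ s ∈ Icc (0:ℝ) 2, ∃ t : ℝ, (∀ u, 0 < t + s * g u ∧ t + s * g u < π / 2) ∧
      ∫ u in (0:ℝ)..L, Qf s u * (Real.sin (t + s * g u) / Real.cos (t + s * g u)) = As ∧
      ∫ u in (0:ℝ)..L, Qf s u * (Real.cos (t + s * g u) / Real.sin (t + s * g u)) = Bs := by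
  have hQs : ∀ s, Continuous (Qf s) := fun s =>
    hQ.comp (Continuous.prodMk continuous_const continuous_id)
  have h02 : (0:ℝ) ∈ Icc (0:ℝ) 2 := ⟨le_rfl, by norm_num⟩
  have hQup : clo ≤ Qup := le_trans (hQb 0 h02 0).1 (hQb 0 h02 0).2
  have hQuppos : 0 < Qup := lt_of_lt_of_le hclo hQup
  set Iup : ℝ := L * Qup with hIup
  have hIuppos : 0 < Iup := mul_pos hL hQuppos
  set κ : ℝ := clo * L / 6 with hκ
  have hκpos : 0 < κ := by positivity
  have hκI : κ ≤ Iup := by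
    have h1 : clo * L ≤ Qup * L := mul_le_mul_of_nonneg_right hQup hL.le
    have h2 : 0 < clo * L := mul_pos hclo hL
    rw [hκ, hIup]
    linarith
  have hAspos : 0 < As := by linarith
  set β₁ : ℝ := Real.arctan (As / Iup) with hβ₁
  set β₂ : ℝ := Real.arctan (As / κ) with hβ₂
  have htβ₁ : Real.tan β₁ = As / Iup := Real.tan_arctan _
  have htβ₂ : Real.tan β₂ = As / κ := Real.tan_arctan _
  have hβ₂lt : β₂ < π / 2 := Real.arctan_lt_pi_div_two _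
  have hβ₁lt : β₁ < π / 2 := Real.arctan_lt_pi_div_two _
  have hβ₁₂ : β₁ ≤ β₂ :=
    Real.arctan_strictMono.monotone (div_le_div_of_nonneg_left hAspos.le hκpos hκI)
  have hβ₁ge : π / 3 ≤ β₁ := by
    have h1 : Real.arctan (Real.tan (π / 3)) = π / 3 :=
      Real.arctan_tan (by linarith [Real.pi_pos]) (by linarith [Real.pi_pos])
    rw [← h1, Real.tan_pi_div_three]
    apply Real.arctan_strictMono.monotone
    have h3 : Real.sqrt 3 ≤ 2 := Real.sqrt_le_iff.2 ⟨by norm_num, by norm_num⟩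
    have h4 : 2 ≤ As / Iup := by
      rw [le_div_iff₀ hIuppos]
      exact hAs1
    linarith
  set s₁ : ℝ := β₁ - π / 6 with hs₁
  have hs₁0 : 0 ≤ s₁ := by linarith [Real.pi_pos]
  have hs₁2 : s₁ ≤ 2 := by linarith [Real.pi_lt_four]
  have hsub : ∀ s ∈ Icc 0 s₁, s ∈ Icc (0:ℝ) 2 := fun s hs => ⟨hs.1, le_trans hs.2 hs₁2⟩
  obtain ⟨tanc, htc, htcpos, htan⟩ := exists_tanc β₂ (by linarith [Real.pi_pos]) hβ₂lt
  have hcinv : Continuous (fun x => (tanc x)⁻¹) := htc.inv₀ (fun x => (htcpos x).ne')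
  have hmono : ∀ s ∈ Icc 0 s₁,
      StrictMonoOn (fun p => ∫ u in (0:ℝ)..L, Qf s u * tanc (p - s * (1 - g u)))
        (Icc β₁ β₂) := fun s hs =>
    A_strictMono (Qf s) (hQs s) L hL (fun u => lt_of_lt_of_le hclo (hQb s (hsub s hs) u).1)
      g tanc hg hg01 htc β₁ β₂ s₁ s hβ₂lt htan hs₁ hs
  have hlo : ∀ s ∈ Icc 0 s₁,
      ∫ u in (0:ℝ)..L, Qf s u * tanc (β₁ - s * (1 - g u)) ≤ As := by
    intro s hs
    have h := A_lo (Qf s) (hQs s) L Qup hL
      (fun u => le_trans hclo.le (hQb s (hsub s hs) u).1) (fun u => (hQb s (hsub s hs) u).2)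
      g tanc hg hg01 htc β₁ β₂ s₁ s hβ₁₂ hβ₂lt htan hs₁ hs
    have e : Qup * Real.tan β₁ * L = As := by
      rw [htβ₁, hIup]
      field_simp
    linarith
  have hhi : ∀ s ∈ Icc 0 s₁,
      As ≤ ∫ u in (0:ℝ)..L, Qf s u * tanc (β₂ - s * (1 - g u)) := by
    intro s hs
    have h := A_hi (Qf s) (hQs s) L clo hL hclo.le (fun u => (hQb s (hsub s hs) u).1)
      g tanc hg htc htcpos hg1 β₁ β₂ s₁ s hβ₁₂ hβ₂lt htan hs₁ hs
    have e : clo * Real.tan β₂ * (L / 2 - L / 3) = As := by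
      rw [htβ₂, hκ]
      field_simp
      ring
    linarith
  have h0 : ∀ p ∈ Icc β₁ β₂,
      (∫ u in (0:ℝ)..L, Qf 0 u * tanc (p - 0 * (1 - g u))) = As →
      (∫ u in (0:ℝ)..L, Qf 0 u * (tanc (p - 0 * (1 - g u)))⁻¹) ≤ Bs := by
    intro p hp hA
    have e1 : (∫ u in (0:ℝ)..L, Qf 0 u * tanc (p - 0 * (1 - g u)))
        = (∫ u in (0:ℝ)..L, Qf 0 u) * tanc p := by
      simp only [zero_mul, sub_zero]
      exact intervalIntegral.integral_mul_const _ _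
    have e2 : (∫ u in (0:ℝ)..L, Qf 0 u * (tanc (p - 0 * (1 - g u)))⁻¹)
        = (∫ u in (0:ℝ)..L, Qf 0 u) * (tanc p)⁻¹ := by
      simp only [zero_mul, sub_zero]
      exact intervalIntegral.integral_mul_const _ _
    rw [e2]
    rw [e1] at hA
    have hI : (∫ u in (0:ℝ)..L, Qf 0 u) ≤ Iup := by
      have h := int_le_const (Qf 0) L Qup hL.le (hQs 0) (fun u _ => (hQb 0 h02 u).2)
      rw [hIup]
      linarith
    exact h0_alg _ (tanc p) As Iup κ Bs hI (htcpos p) hAspos hA hAs2 hBs1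
  have h1 : ∀ p ∈ Icc β₁ β₂,
      (∫ u in (0:ℝ)..L, Qf s₁ u * tanc (p - s₁ * (1 - g u))) = As →
      Bs ≤ ∫ u in (0:ℝ)..L, Qf s₁ u * (tanc (p - s₁ * (1 - g u)))⁻¹ := by
    intro p hp _
    have h := B_one (Qf s₁) (hQs s₁) L clo hL hclo.le (fun u => (hQb s₁ ⟨hs₁0, hs₁2⟩ u).1)
      g tanc hg htc htcpos hg0 β₁ β₂ s₁ p hβ₂lt hβ₁ge htan hs₁ hp
    have e : clo / 2 * (L / 6 - 0) = κ / 2 := by
      rw [hκ]
      ring
    linarith
  obtain ⟨s, hs, p, hp, hAe, hBe⟩ := nested_ivt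
    (fun s p => ∫ u in (0:ℝ)..L, Qf s u * tanc (p - s * (1 - g u)))
    (fun s p => ∫ u in (0:ℝ)..L, Qf s u * (tanc (p - s * (1 - g u)))⁻¹)
    (cont_param Qf hQ g tanc hg htc L)
    (cont_param Qf hQ g (fun x => (tanc x)⁻¹) hg hcinv L)
    s₁ β₁ β₂ hs₁0 hβ₁₂ As Bs hmono hlo hhi h0 h1
  have hAe' : (∫ u in (0:ℝ)..L, Qf s u * tanc (p - s * (1 - g u))) = As := hAe
  have hBe' : (∫ u in (0:ℝ)..L, Qf s u * (tanc (p - s * (1 - g u)))⁻¹) = Bs := hBe
  have hmem : ∀ u, π / 6 ≤ p - s + s * g u ∧ p - s + s * g u ≤ β₂ := by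
    intro u
    obtain ⟨a1, a2⟩ := arg_mem g hg01 β₁ β₂ s₁ s p hs₁ hs hp u
    have e : p - s + s * g u = p - s * (1 - g u) := by ring
    rw [e]
    exact ⟨a1, le_trans a2 hp.2⟩
  refine ⟨s, hsub s hs, p - s, fun u =>
    ⟨by linarith [(hmem u).1, Real.pi_pos], by linarith [(hmem u).2]⟩, ?_, ?_⟩
  · rw [← hAe']
    apply intervalIntegral.integral_congr
    intro u _
    show Qf s u * (Real.sin (p - s + s * g u) / Real.cos (p - s + s * g u))
      = Qf s u * tanc (p - s * (1 - g u))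
    have e : p - s * (1 - g u) = p - s + s * g u := by ring
    rw [e, htan _ (hmem u).1 (hmem u).2, Real.tan_eq_sin_div_cos]
  · rw [← hBe']
    apply intervalIntegral.integral_congr
    intro u _
    show Qf s u * (Real.cos (p - s + s * g u) / Real.sin (p - s + s * g u))
      = Qf s u * (tanc (p - s * (1 - g u)))⁻¹
    have e : p - s * (1 - g u) = p - s + s * g u := by ring
    rw [e, htan _ (hmem u).1 (hmem u).2, Real.tan_eq_sin_div_cos, inv_div]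

theorem params_exist (q a1 g g1 : ℝ → ℝ) (L P τ : ℝ) (hL : 0 < L) (hP : 0 < P)
    (hq : Continuous q) (ha1 : Continuous a1) (hg : Continuous g) (hg1 : Continuous g1)
    (hqper : Function.Periodic q L) (ha1per : Function.Periodic a1 L)
    (hg1per : Function.Periodic g1 L)
    (hqpos : ∀ u, 0 < q u) (ha1nn : ∀ u, 0 ≤ a1 u)
    (hg01 : ∀ u, 0 ≤ g u ∧ g u ≤ 1)
    (hg0 : ∀ u ∈ Icc 0 (L / 6), g u = 0) (hg1' : ∀ u ∈ Icc (L / 3) (L / 2), g u = 1) :
    ∃ (k : ℕ) (s t : ℝ) (m₁ m₂ : ℤ), 0 < k ∧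
      (∀ u, 0 < t + s * g u ∧ t + s * g u < π / 2) ∧
      (∀ u, 0 < q u - (P / (2 * π * k)) ^ 2 * (a1 u + s ^ 2 * g1 u ^ 2)) ∧
      τ + ∫ u in (0:ℝ)..L,
          Real.sqrt (q u - (P / (2 * π * k)) ^ 2 * (a1 u + s ^ 2 * g1 u ^ 2))
            * (Real.sin (t + s * g u) / Real.cos (t + s * g u)) = m₁ * P / k ∧
      τ - ∫ u in (0:ℝ)..L,
          Real.sqrt (q u - (P / (2 * π * k)) ^ 2 * (a1 u + s ^ 2 * g1 u ^ 2))
            * (Real.cos (t + s * g u) / Real.sin (t + s * g u)) = m₂ * P / k := by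
  obtain ⟨qmin, hqmin, hqlo⟩ := periodic_pos_lower_bound q L hL hq hqper hqpos
  obtain ⟨qmax, hqmax0, hqup⟩ := periodic_upper_bound q L hL hq hqper
  obtain ⟨M₁, hM₁0, hM₁⟩ := periodic_upper_bound a1 L hL ha1 ha1per
  obtain ⟨M₂, hM₂0, hM₂⟩ := periodic_upper_bound (fun u => g1 u ^ 2) L hL (hg1.pow 2)
    (fun u => by show g1 (u + L) ^ 2 = g1 u ^ 2; rw [hg1per u])
  set clo : ℝ := Real.sqrt (qmin / 2) with hclo
  have hclopos : 0 < clo := Real.sqrt_pos.2 (by linarith)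
  set Qup : ℝ := Real.sqrt qmax with hQup
  set κ : ℝ := clo * L / 6 with hκ
  have hκpos : 0 < κ := by positivity
  obtain ⟨k, hk, hkc, hkP⟩ := choose_k P κ (M₁ + 4 * M₂) qmin hP hκpos (by linarith) hqmin
  set c : ℝ := P / (2 * π * k) with hc
  obtain ⟨m₁, m₂, hm₁, hm₂a, hm₂b⟩ := choose_targets P κ
    (max (2 * (L * Qup)) (4 * (L * Qup) ^ 2 / κ)) τ k hk hP hkP
  have hrad : ∀ s ∈ Icc (0:ℝ) 2, ∀ u,
      qmin / 2 ≤ q u - c ^ 2 * (a1 u + s ^ 2 * g1 u ^ 2) ∧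
      q u - c ^ 2 * (a1 u + s ^ 2 * g1 u ^ 2) ≤ qmax := by
    intro s hs u
    have hs2 : s ^ 2 ≤ 4 := by
      have h := pow_le_pow_left₀ hs.1 hs.2 2
      norm_num at h
      exact h
    have h1 : s ^ 2 * g1 u ^ 2 ≤ 4 * M₂ := mul_le_mul hs2 (hM₂ u) (sq_nonneg _) (by norm_num)
    have h2 : a1 u + s ^ 2 * g1 u ^ 2 ≤ M₁ + 4 * M₂ := by linarith [hM₁ u]
    have h3 : c ^ 2 * (a1 u + s ^ 2 * g1 u ^ 2) ≤ c ^ 2 * (M₁ + 4 * M₂) :=
      mul_le_mul_of_nonneg_left h2 (sq_nonneg c)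
    have h4 : 0 ≤ c ^ 2 * (a1 u + s ^ 2 * g1 u ^ 2) :=
      mul_nonneg (sq_nonneg c)
        (add_nonneg (ha1nn u) (mul_nonneg (sq_nonneg _) (sq_nonneg _)))
    constructor
    · linarith [hqlo u]
    · linarith [hqup u]
  have hQfc : Continuous (Function.uncurry
      (fun (s u : ℝ) => Real.sqrt (q u - c ^ 2 * (a1 u + s ^ 2 * g1 u ^ 2)))) := by
    show Continuous (fun x : ℝ × ℝ =>
      Real.sqrt (q x.2 - c ^ 2 * (a1 x.2 + x.1 ^ 2 * g1 x.2 ^ 2)))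
    fun_prop
  have hQb : ∀ s ∈ Icc (0:ℝ) 2, ∀ u,
      clo ≤ Real.sqrt (q u - c ^ 2 * (a1 u + s ^ 2 * g1 u ^ 2)) ∧
      Real.sqrt (q u - c ^ 2 * (a1 u + s ^ 2 * g1 u ^ 2)) ≤ Qup := by
    intro s hs u
    obtain ⟨h1, h2⟩ := hrad s hs u
    exact ⟨Real.sqrt_le_sqrt h1, Real.sqrt_le_sqrt h2⟩
  have hAs1 : 2 * (L * Qup) ≤ m₁ * P / k - τ := le_trans (le_max_left _ _) hm₁
  have hAs2 : 4 * (L * Qup) ^ 2 ≤ clo * L / 6 * (m₁ * P / k - τ) := by
    have h := le_trans (le_max_right _ _) hm₁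
    rw [div_le_iff₀ hκpos] at h
    calc 4 * (L * Qup) ^ 2 ≤ (m₁ * P / k - τ) * κ := h
      _ = clo * L / 6 * (m₁ * P / k - τ) := mul_comm _ _
  obtain ⟨s, hs, t, hψ, hA, hB⟩ := core
    (fun (s u : ℝ) => Real.sqrt (q u - c ^ 2 * (a1 u + s ^ 2 * g1 u ^ 2))) hQfc g hg hg01 L hL
    hg0 hg1' clo Qup hclopos hQb (m₁ * P / k - τ) (τ - m₂ * P / k) hAs1 hAs2 hm₂a hm₂b
  refine ⟨k, s, t, m₁, m₂, hk, hψ, fun u => ?_, ?_, ?_⟩
  · have h := (hrad s hs u).1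
    linarith
  · have h : (∫ u in (0:ℝ)..L, Real.sqrt (q u - c ^ 2 * (a1 u + s ^ 2 * g1 u ^ 2))
        * (Real.sin (t + s * g u) / Real.cos (t + s * g u))) = m₁ * P / k - τ := hA
    rw [h]
    ring
  · have h : (∫ u in (0:ℝ)..L, Real.sqrt (q u - c ^ 2 * (a1 u + s ^ 2 * g1 u ^ 2))
        * (Real.cos (t + s * g u) / Real.sin (t + s * g u))) = τ - m₂ * P / k := hB
    rw [h]
    ring

theorem primitive_add_period (f : ℝ → ℝ) (L : ℝ) (hf : Continuous f)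
    (hper : Function.Periodic f L) (x : ℝ) :
    ∫ t in (0 : ℝ)..(x + L), f t = (∫ t in (0 : ℝ)..x, f t) + ∫ t in (0 : ℝ)..L, f t := by
  have h1 : ∫ t in (0 : ℝ)..(x + L), f t
      = (∫ t in (0 : ℝ)..x, f t) + ∫ t in x..(x + L), f t :=
    (intervalIntegral.integral_add_adjacent_intervals (hf.intervalIntegrable _ _)
      (hf.intervalIntegrable _ _)).symm
  have h2 : ∫ t in x..(x + L), f t = ∫ t in (0 : ℝ)..(0 + L), f t :=
    hper.intervalIntegral_add_eq x 0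
  rw [h1, h2, zero_add]

theorem bump_exists (L : ℝ) (hL : 0 < L) :
    ∃ g : ℝ → ℝ, ContDiff ℝ ∞ g ∧ Function.Periodic g L ∧ (∀ u, 0 ≤ g u ∧ g u ≤ 1) ∧
      (∀ u ∈ Icc 0 (L / 6), g u = 0) ∧ (∀ u ∈ Icc (L / 3) (L / 2), g u = 1) := by
  refine ⟨fun u => Real.smoothTransition (2 * Real.sin (π * u / L) ^ 2 - 1 / 2), ?_, ?_, ?_, ?_, ?_⟩
  · apply Real.smoothTransition.contDiff.comp
    exact (contDiff_const.mul
      ((Real.contDiff_sin.comp ((contDiff_const.mul contDiff_id).div_const L)).pow 2)).sub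
      contDiff_const
  · intro u
    show Real.smoothTransition (2 * Real.sin (π * (u + L) / L) ^ 2 - 1 / 2)
      = Real.smoothTransition (2 * Real.sin (π * u / L) ^ 2 - 1 / 2)
    have e : π * (u + L) / L = π * u / L + π := by
      field_simp
    rw [e, Real.sin_add_pi, neg_sq]
  · intro u
    exact ⟨Real.smoothTransition.nonneg _, Real.smoothTransition.le_one _⟩
  · intro u hu
    apply Real.smoothTransition.zero_of_nonpos
    have h0 : 0 ≤ π * u / L := div_nonneg (mul_nonneg Real.pi_pos.le hu.1) hL.le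
    have h1 : π * u / L ≤ π / 6 := by
      rw [div_le_iff₀ hL]
      have h2 := hu.2
      have h3 : π * u ≤ π * (L / 6) := mul_le_mul_of_nonneg_left h2 Real.pi_pos.le
      linarith
    have hs0 : 0 ≤ Real.sin (π * u / L) :=
      Real.sin_nonneg_of_nonneg_of_le_pi h0 (by linarith [Real.pi_pos])
    have hs1 : Real.sin (π * u / L) ≤ 1 / 2 := by
      rw [← Real.sin_pi_div_six]
      exact Real.sin_le_sin_of_le_of_le_pi_div_two (by linarith [Real.pi_pos])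
        (by linarith [Real.pi_pos]) h1
    have hsq : Real.sin (π * u / L) ^ 2 ≤ (1 / 2) ^ 2 := pow_le_pow_left₀ hs0 hs1 2
    norm_num at hsq
    linarith
  · intro u hu
    apply Real.smoothTransition.one_of_one_le
    have h0 : π / 3 ≤ π * u / L := by
      rw [le_div_iff₀ hL]
      have h2 := hu.1
      have h3 : π * (L / 3) ≤ π * u := mul_le_mul_of_nonneg_left h2 Real.pi_pos.le
      linarith
    have h1 : π * u / L ≤ π / 2 := by
      rw [div_le_iff₀ hL]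
      have h2 := hu.2
      have h3 : π * u ≤ π * (L / 2) := mul_le_mul_of_nonneg_left h2 Real.pi_pos.le
      linarith
    have hs1 : Real.sqrt 3 / 2 ≤ Real.sin (π * u / L) := by
      rw [← Real.sin_pi_div_three]
      exact Real.sin_le_sin_of_le_of_le_pi_div_two (by linarith [Real.pi_pos]) h1 h0
    have hs0 : (0:ℝ) ≤ Real.sqrt 3 / 2 := by positivity
    have hsq : (Real.sqrt 3 / 2) ^ 2 ≤ Real.sin (π * u / L) ^ 2 := pow_le_pow_left₀ hs0 hs1 2
    have h3 : (Real.sqrt 3 / 2) ^ 2 = 3 / 4 := by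
      rw [div_pow, Real.sq_sqrt (by norm_num)]
      norm_num
    rw [h3] at hsq
    linarith

theorem metric_E (c a a' p' f Q cψ sψ c1 s1 c2 s2 : ℝ) (h1 : c1 ^ 2 + s1 ^ 2 = 1)
    (h2 : c2 ^ 2 + s2 ^ 2 = 1) (hψ : cψ ^ 2 + sψ ^ 2 = 1) :
    (c * (a' * cψ - a * sψ * p') * c1 - a * (f * cψ + Q * sψ) * s1) ^ 2
    + (c * (a' * cψ - a * sψ * p') * s1 + a * (f * cψ + Q * sψ) * c1) ^ 2
    + (c * (a' * sψ + a * cψ * p') * c2 - a * (f * sψ - Q * cψ) * s2) ^ 2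
    + (c * (a' * sψ + a * cψ * p') * s2 + a * (f * sψ - Q * cψ) * c2) ^ 2
    = c ^ 2 * (a' ^ 2 + a ^ 2 * p' ^ 2) + a ^ 2 * (f ^ 2 + Q ^ 2) := by
  linear_combination
    (c ^ 2 * (a' * cψ - a * sψ * p') ^ 2 + a ^ 2 * (f * cψ + Q * sψ) ^ 2) * h1
    + (c ^ 2 * (a' * sψ + a * cψ * p') ^ 2 + a ^ 2 * (f * sψ - Q * cψ) ^ 2) * h2
    + (c ^ 2 * (a' ^ 2 + a ^ 2 * p' ^ 2) + a ^ 2 * (f ^ 2 + Q ^ 2)) * hψ

theorem metric_F (c a a' p' f Q cψ sψ c1 s1 c2 s2 : ℝ) (h1 : c1 ^ 2 + s1 ^ 2 = 1)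
    (h2 : c2 ^ 2 + s2 ^ 2 = 1) (hψ : cψ ^ 2 + sψ ^ 2 = 1) :
    (c * (a' * cψ - a * sψ * p') * c1 - a * (f * cψ + Q * sψ) * s1) * (-(a * cψ * s1))
    + (c * (a' * cψ - a * sψ * p') * s1 + a * (f * cψ + Q * sψ) * c1) * (a * cψ * c1)
    + (c * (a' * sψ + a * cψ * p') * c2 - a * (f * sψ - Q * cψ) * s2) * (-(a * sψ * s2))
    + (c * (a' * sψ + a * cψ * p') * s2 + a * (f * sψ - Q * cψ) * c2) * (a * sψ * c2)
    = a ^ 2 * f := by
  linear_combination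
    (a * cψ * (a * (f * cψ + Q * sψ))) * h1
    + (a * sψ * (a * (f * sψ - Q * cψ))) * h2
    + (a ^ 2 * f) * hψ

theorem metric_G (a cψ sψ c1 s1 c2 s2 : ℝ) (h1 : c1 ^ 2 + s1 ^ 2 = 1)
    (h2 : c2 ^ 2 + s2 ^ 2 = 1) (hψ : cψ ^ 2 + sψ ^ 2 = 1) :
    (-(a * cψ * s1)) ^ 2 + (a * cψ * c1) ^ 2 + (-(a * sψ * s2)) ^ 2 + (a * sψ * c2) ^ 2
    = a ^ 2 := by
  linear_combination (a ^ 2 * cψ ^ 2) * h1 + (a ^ 2 * sψ ^ 2) * h2 + (a ^ 2) * hψ

theorem build (E F G : ℝ → ℝ) (L P c : ℝ) (k : ℕ) (m₁ m₂ : ℤ) (A A' ψ ψ' f Q : ℝ → ℝ)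
    (hc : 0 < c) (hPc : P / c = (k : ℝ) * (2 * π))
    (hA : ContDiff ℝ ∞ A) (hAd : ∀ x, HasDerivAt A (A' x) x) (hAper : Function.Periodic A L)
    (hψ : ContDiff ℝ ∞ ψ) (hψd : ∀ x, HasDerivAt ψ (ψ' x) x) (hψper : Function.Periodic ψ L)
    (hψr : ∀ x, 0 < ψ x ∧ ψ x < π / 2)
    (hf : ContDiff ℝ ∞ f) (hfper : Function.Periodic f L)
    (hQ : ContDiff ℝ ∞ Q) (hQper : Function.Periodic Q L)
    (hclose1 : ∫ u in (0:ℝ)..L, (f u + Q u * (Real.sin (ψ u) / Real.cos (ψ u))) / c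
      = (m₁ : ℝ) * (2 * π))
    (hclose2 : ∫ u in (0:ℝ)..L, (f u - Q u * (Real.cos (ψ u) / Real.sin (ψ u))) / c
      = (m₂ : ℝ) * (2 * π))
    (hmetE : ∀ x, c ^ 2 * (A' x ^ 2 + A x ^ 2 * ψ' x ^ 2) + A x ^ 2 * (f x ^ 2 + Q x ^ 2) = E x)
    (hmetF : ∀ x, A x ^ 2 * f x = F x) (hmetG : ∀ x, A x ^ 2 = G x) :
    ∃ Φ : ℝ × ℝ → EuclideanSpace ℝ (Fin 4), ContDiff ℝ ((⊤ : ℕ∞) : WithTop ℕ∞) Φ ∧
      (∀ q : ℝ × ℝ, Φ (q.1 + L, q.2) = Φ q) ∧ (∀ q : ℝ × ℝ, Φ (q.1, q.2 + P) = Φ q) ∧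
      ∀ q : ℝ × ℝ,
        inner ℝ (fderiv ℝ Φ q (1, 0)) (fderiv ℝ Φ q (1, 0)) = E q.1 ∧
        inner ℝ (fderiv ℝ Φ q (1, 0)) (fderiv ℝ Φ q (0, 1)) = F q.1 ∧
        inner ℝ (fderiv ℝ Φ q (0, 1)) (fderiv ℝ Φ q (0, 1)) = G q.1 := by
  have hcosne : ∀ x, Real.cos (ψ x) ≠ 0 := fun x =>
    (Real.cos_pos_of_mem_Ioo ⟨by linarith [(hψr x).1, Real.pi_pos], (hψr x).2⟩).ne'
  have hsinne : ∀ x, Real.sin (ψ x) ≠ 0 := fun x =>
    (Real.sin_pos_of_pos_of_lt_pi (hψr x).1 (by linarith [(hψr x).2, Real.pi_pos])).ne'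
  have hcosψ : ContDiff ℝ ∞ (fun x => Real.cos (ψ x)) := Real.contDiff_cos.comp hψ
  have hsinψ : ContDiff ℝ ∞ (fun x => Real.sin (ψ x)) := Real.contDiff_sin.comp hψ
  set W₁ : ℝ → ℝ := fun u => (f u + Q u * (Real.sin (ψ u) / Real.cos (ψ u))) / c with hW₁
  set W₂ : ℝ → ℝ := fun u => (f u - Q u * (Real.cos (ψ u) / Real.sin (ψ u))) / c with hW₂
  have hW₁sm : ContDiff ℝ ∞ W₁ := (hf.add (hQ.mul (hsinψ.div hcosψ hcosne))).div_const c
  have hW₂sm : ContDiff ℝ ∞ W₂ := (hf.sub (hQ.mul (hcosψ.div hsinψ hsinne))).div_const c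
  have hW₁per : Function.Periodic W₁ L := by
    intro x
    show (f (x + L) + Q (x + L) * (Real.sin (ψ (x + L)) / Real.cos (ψ (x + L)))) / c
      = (f x + Q x * (Real.sin (ψ x) / Real.cos (ψ x))) / c
    rw [hfper x, hQper x, hψper x]
  have hW₂per : Function.Periodic W₂ L := by
    intro x
    show (f (x + L) - Q (x + L) * (Real.cos (ψ (x + L)) / Real.sin (ψ (x + L)))) / c
      = (f x - Q x * (Real.cos (ψ x) / Real.sin (ψ x))) / c
    rw [hfper x, hQper x, hψper x]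
  set θ₁ : ℝ → ℝ := fun x => ∫ u in (0:ℝ)..x, W₁ u with hθ₁
  set θ₂ : ℝ → ℝ := fun x => ∫ u in (0:ℝ)..x, W₂ u with hθ₂
  have hθ₁sm : ContDiff ℝ ∞ θ₁ := contDiff_primitive W₁ hW₁sm 0
  have hθ₂sm : ContDiff ℝ ∞ θ₂ := contDiff_primitive W₂ hW₂sm 0
  have hθ₁d : ∀ x, HasDerivAt θ₁ (W₁ x) x := by
    intro x
    have h1 := ((contDiff_infty_iff_deriv.mp hθ₁sm).1 x).hasDerivAt
    have h2 : deriv θ₁ x = W₁ x := hW₁sm.continuous.deriv_integral W₁ 0 x
    rwa [h2] at h1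
  have hθ₂d : ∀ x, HasDerivAt θ₂ (W₂ x) x := by
    intro x
    have h1 := ((contDiff_infty_iff_deriv.mp hθ₂sm).1 x).hasDerivAt
    have h2 : deriv θ₂ x = W₂ x := hW₂sm.continuous.deriv_integral W₂ 0 x
    rwa [h2] at h1
  have hθ₁per : ∀ x, θ₁ (x + L) = θ₁ x + (m₁ : ℝ) * (2 * π) := by
    intro x
    have h := primitive_add_period W₁ L hW₁sm.continuous hW₁per x
    rw [hclose1] at h
    exact h
  have hθ₂per : ∀ x, θ₂ (x + L) = θ₂ x + (m₂ : ℝ) * (2 * π) := by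
    intro x
    have h := primitive_add_period W₂ L hW₂sm.continuous hW₂per x
    rw [hclose2] at h
    exact h
  set Φ : ℝ × ℝ → EuclideanSpace ℝ (Fin 4) := fun q =>
    !₂[c * A q.1 * Real.cos (ψ q.1) * Real.cos (q.2 / c + θ₁ q.1),
       c * A q.1 * Real.cos (ψ q.1) * Real.sin (q.2 / c + θ₁ q.1),
       c * A q.1 * Real.sin (ψ q.1) * Real.cos (q.2 / c + θ₂ q.1),
       c * A q.1 * Real.sin (ψ q.1) * Real.sin (q.2 / c + θ₂ q.1)] with hΦ
  have hΦsm : ContDiff ℝ ∞ Φ := by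
    rw [contDiff_euclidean]
    intro i
    have h1 : ContDiff ℝ ∞ (fun q : ℝ × ℝ => c * A q.1) :=
      contDiff_const.mul (hA.comp contDiff_fst)
    have hc' : ContDiff ℝ ∞ (fun q : ℝ × ℝ => Real.cos (ψ q.1)) := hcosψ.comp contDiff_fst
    have hs' : ContDiff ℝ ∞ (fun q : ℝ × ℝ => Real.sin (ψ q.1)) := hsinψ.comp contDiff_fst
    have h2 : ContDiff ℝ ∞ (fun q : ℝ × ℝ => q.2 / c + θ₁ q.1) :=
      (contDiff_snd.div_const c).add (hθ₁sm.comp contDiff_fst)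
    have h3 : ContDiff ℝ ∞ (fun q : ℝ × ℝ => q.2 / c + θ₂ q.1) :=
      (contDiff_snd.div_const c).add (hθ₂sm.comp contDiff_fst)
    fin_cases i
    · exact (h1.mul hc').mul (Real.contDiff_cos.comp h2)
    · exact (h1.mul hc').mul (Real.contDiff_sin.comp h2)
    · exact (h1.mul hs').mul (Real.contDiff_cos.comp h3)
    · exact (h1.mul hs').mul (Real.contDiff_sin.comp h3)
  refine ⟨Φ, hΦsm, ?_, ?_, ?_⟩
  · rintro ⟨x, y⟩
    ext i
    fin_cases i
    · show c * A (x + L) * Real.cos (ψ (x + L)) * Real.cos (y / c + θ₁ (x + L))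
        = c * A x * Real.cos (ψ x) * Real.cos (y / c + θ₁ x)
      rw [hAper x, hψper x, hθ₁per x, ← add_assoc, Real.cos_add_int_mul_two_pi]
    · show c * A (x + L) * Real.cos (ψ (x + L)) * Real.sin (y / c + θ₁ (x + L))
        = c * A x * Real.cos (ψ x) * Real.sin (y / c + θ₁ x)
      rw [hAper x, hψper x, hθ₁per x, ← add_assoc, Real.sin_add_int_mul_two_pi]
    · show c * A (x + L) * Real.sin (ψ (x + L)) * Real.cos (y / c + θ₂ (x + L))
        = c * A x * Real.sin (ψ x) * Real.cos (y / c + θ₂ x)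
      rw [hAper x, hψper x, hθ₂per x, ← add_assoc, Real.cos_add_int_mul_two_pi]
    · show c * A (x + L) * Real.sin (ψ (x + L)) * Real.sin (y / c + θ₂ (x + L))
        = c * A x * Real.sin (ψ x) * Real.sin (y / c + θ₂ x)
      rw [hAper x, hψper x, hθ₂per x, ← add_assoc, Real.sin_add_int_mul_two_pi]
  · rintro ⟨x, y⟩
    have e1 : ∀ θ : ℝ, (y + P) / c + θ = y / c + θ + (k : ℝ) * (2 * π) := by
      intro θ
      rw [← hPc]
      ring
    ext i
    fin_cases i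
    · show c * A x * Real.cos (ψ x) * Real.cos ((y + P) / c + θ₁ x)
        = c * A x * Real.cos (ψ x) * Real.cos (y / c + θ₁ x)
      rw [e1, Real.cos_add_nat_mul_two_pi]
    · show c * A x * Real.cos (ψ x) * Real.sin ((y + P) / c + θ₁ x)
        = c * A x * Real.cos (ψ x) * Real.sin (y / c + θ₁ x)
      rw [e1, Real.sin_add_nat_mul_two_pi]
    · show c * A x * Real.sin (ψ x) * Real.cos ((y + P) / c + θ₂ x)
        = c * A x * Real.sin (ψ x) * Real.cos (y / c + θ₂ x)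
      rw [e1, Real.cos_add_nat_mul_two_pi]
    · show c * A x * Real.sin (ψ x) * Real.sin ((y + P) / c + θ₂ x)
        = c * A x * Real.sin (ψ x) * Real.sin (y / c + θ₂ x)
      rw [e1, Real.sin_add_nat_mul_two_pi]
  rintro ⟨x, y⟩
  have hdiff : DifferentiableAt ℝ Φ (x, y) :=
    (hΦsm.differentiable (by simp)).differentiableAt
  have hcomp : ∀ i, DifferentiableAt ℝ (fun q => Φ q i) (x, y) :=
    differentiableAt_euclidean.mp hdiff
  have hcne := hcosne x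
  have hsne := hsinne x
  have hcne' : c ≠ 0 := hc.ne'
  set Θ₁ : ℝ := y / c + θ₁ x with hΘ₁
  set Θ₂ : ℝ := y / c + θ₂ x with hΘ₂
  have hAc : HasDerivAt (fun t => c * A t) (c * A' x) x := (hAd x).const_mul c
  have hT1 : HasDerivAt (fun t => y / c + θ₁ t) (W₁ x) x := (hθ₁d x).const_add (y / c)
  have hT2 : HasDerivAt (fun t => y / c + θ₂ t) (W₂ x) x := (hθ₂d x).const_add (y / c)
  have hW₁x : W₁ x = (f x + Q x * (Real.sin (ψ x) / Real.cos (ψ x))) / c := rfl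
  have hW₂x : W₂ x = (f x - Q x * (Real.cos (ψ x) / Real.sin (ψ x))) / c := rfl
  have hx0' : (fderiv ℝ Φ (x, y) (1, 0)) 0
      = c * (A' x * Real.cos (ψ x) - A x * Real.sin (ψ x) * ψ' x) * Real.cos Θ₁
        - A x * (f x * Real.cos (ψ x) + Q x * Real.sin (ψ x)) * Real.sin Θ₁ := by
    rw [fderiv_euclidean_apply Φ _ _ hdiff 0]
    apply fderiv_apply_one_zero _ x y _ (hcomp 0)
    show HasDerivAt (fun t => c * A t * Real.cos (ψ t) * Real.cos (y / c + θ₁ t)) _ x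
    have h3 : HasDerivAt (fun t => c * A t * Real.cos (ψ t) * Real.cos (y / c + θ₁ t))
        ((c * A' x * Real.cos (ψ x) + c * A x * (-Real.sin (ψ x) * ψ' x)) * Real.cos Θ₁
          + c * A x * Real.cos (ψ x) * (-Real.sin Θ₁ * W₁ x)) x :=
      (hAc.mul (hψd x).cos).mul hT1.cos
    have h4 : (c * A' x * Real.cos (ψ x) + c * A x * (-Real.sin (ψ x) * ψ' x)) * Real.cos Θ₁
          + c * A x * Real.cos (ψ x) * (-Real.sin Θ₁ * W₁ x)
        = c * (A' x * Real.cos (ψ x) - A x * Real.sin (ψ x) * ψ' x) * Real.cos Θ₁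
        - A x * (f x * Real.cos (ψ x) + Q x * Real.sin (ψ x)) * Real.sin Θ₁ := by
      rw [hW₁x]
      field_simp
      ring
    rw [h4] at h3
    exact h3
  have hx1' : (fderiv ℝ Φ (x, y) (1, 0)) 1
      = c * (A' x * Real.cos (ψ x) - A x * Real.sin (ψ x) * ψ' x) * Real.sin Θ₁
        + A x * (f x * Real.cos (ψ x) + Q x * Real.sin (ψ x)) * Real.cos Θ₁ := by
    rw [fderiv_euclidean_apply Φ _ _ hdiff 1]
    apply fderiv_apply_one_zero _ x y _ (hcomp 1)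
    show HasDerivAt (fun t => c * A t * Real.cos (ψ t) * Real.sin (y / c + θ₁ t)) _ x
    have h3 : HasDerivAt (fun t => c * A t * Real.cos (ψ t) * Real.sin (y / c + θ₁ t))
        ((c * A' x * Real.cos (ψ x) + c * A x * (-Real.sin (ψ x) * ψ' x)) * Real.sin Θ₁
          + c * A x * Real.cos (ψ x) * (Real.cos Θ₁ * W₁ x)) x :=
      (hAc.mul (hψd x).cos).mul hT1.sin
    have h4 : (c * A' x * Real.cos (ψ x) + c * A x * (-Real.sin (ψ x) * ψ' x)) * Real.sin Θ₁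
          + c * A x * Real.cos (ψ x) * (Real.cos Θ₁ * W₁ x)
        = c * (A' x * Real.cos (ψ x) - A x * Real.sin (ψ x) * ψ' x) * Real.sin Θ₁
        + A x * (f x * Real.cos (ψ x) + Q x * Real.sin (ψ x)) * Real.cos Θ₁ := by
      rw [hW₁x]
      field_simp
      ring
    rw [h4] at h3
    exact h3
  have hx2' : (fderiv ℝ Φ (x, y) (1, 0)) 2
      = c * (A' x * Real.sin (ψ x) + A x * Real.cos (ψ x) * ψ' x) * Real.cos Θ₂
        - A x * (f x * Real.sin (ψ x) - Q x * Real.cos (ψ x)) * Real.sin Θ₂ := by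
    rw [fderiv_euclidean_apply Φ _ _ hdiff 2]
    apply fderiv_apply_one_zero _ x y _ (hcomp 2)
    show HasDerivAt (fun t => c * A t * Real.sin (ψ t) * Real.cos (y / c + θ₂ t)) _ x
    have h3 : HasDerivAt (fun t => c * A t * Real.sin (ψ t) * Real.cos (y / c + θ₂ t))
        ((c * A' x * Real.sin (ψ x) + c * A x * (Real.cos (ψ x) * ψ' x)) * Real.cos Θ₂
          + c * A x * Real.sin (ψ x) * (-Real.sin Θ₂ * W₂ x)) x :=
      (hAc.mul (hψd x).sin).mul hT2.cos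
    have h4 : (c * A' x * Real.sin (ψ x) + c * A x * (Real.cos (ψ x) * ψ' x)) * Real.cos Θ₂
          + c * A x * Real.sin (ψ x) * (-Real.sin Θ₂ * W₂ x)
        = c * (A' x * Real.sin (ψ x) + A x * Real.cos (ψ x) * ψ' x) * Real.cos Θ₂
        - A x * (f x * Real.sin (ψ x) - Q x * Real.cos (ψ x)) * Real.sin Θ₂ := by
      rw [hW₂x]
      field_simp
      ring
    rw [h4] at h3
    exact h3
  have hx3' : (fderiv ℝ Φ (x, y) (1, 0)) 3
      = c * (A' x * Real.sin (ψ x) + A x * Real.cos (ψ x) * ψ' x) * Real.sin Θ₂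
        + A x * (f x * Real.sin (ψ x) - Q x * Real.cos (ψ x)) * Real.cos Θ₂ := by
    rw [fderiv_euclidean_apply Φ _ _ hdiff 3]
    apply fderiv_apply_one_zero _ x y _ (hcomp 3)
    show HasDerivAt (fun t => c * A t * Real.sin (ψ t) * Real.sin (y / c + θ₂ t)) _ x
    have h3 : HasDerivAt (fun t => c * A t * Real.sin (ψ t) * Real.sin (y / c + θ₂ t))
        ((c * A' x * Real.sin (ψ x) + c * A x * (Real.cos (ψ x) * ψ' x)) * Real.sin Θ₂
          + c * A x * Real.sin (ψ x) * (Real.cos Θ₂ * W₂ x)) x :=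
      (hAc.mul (hψd x).sin).mul hT2.sin
    have h4 : (c * A' x * Real.sin (ψ x) + c * A x * (Real.cos (ψ x) * ψ' x)) * Real.sin Θ₂
          + c * A x * Real.sin (ψ x) * (Real.cos Θ₂ * W₂ x)
        = c * (A' x * Real.sin (ψ x) + A x * Real.cos (ψ x) * ψ' x) * Real.sin Θ₂
        + A x * (f x * Real.sin (ψ x) - Q x * Real.cos (ψ x)) * Real.cos Θ₂ := by
      rw [hW₂x]
      field_simp
    rw [h4] at h3
    exact h3
  have hV1 : HasDerivAt (fun t => t / c + θ₁ x) (1 / c) y :=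
    ((hasDerivAt_id y).div_const c).add_const (θ₁ x)
  have hV2 : HasDerivAt (fun t => t / c + θ₂ x) (1 / c) y :=
    ((hasDerivAt_id y).div_const c).add_const (θ₂ x)
  have hy0' : (fderiv ℝ Φ (x, y) (0, 1)) 0 = -(A x * Real.cos (ψ x) * Real.sin Θ₁) := by
    rw [fderiv_euclidean_apply Φ _ _ hdiff 0]
    apply fderiv_apply_zero_one _ x y _ (hcomp 0)
    show HasDerivAt (fun t => c * A x * Real.cos (ψ x) * Real.cos (t / c + θ₁ x)) _ y
    have h3 : HasDerivAt (fun t => c * A x * Real.cos (ψ x) * Real.cos (t / c + θ₁ x))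
        (c * A x * Real.cos (ψ x) * (-Real.sin Θ₁ * (1 / c))) y :=
      hV1.cos.const_mul (c * A x * Real.cos (ψ x))
    have h4 : c * A x * Real.cos (ψ x) * (-Real.sin Θ₁ * (1 / c))
        = -(A x * Real.cos (ψ x) * Real.sin Θ₁) := by
      field_simp
    rw [h4] at h3
    exact h3
  have hy1' : (fderiv ℝ Φ (x, y) (0, 1)) 1 = A x * Real.cos (ψ x) * Real.cos Θ₁ := by
    rw [fderiv_euclidean_apply Φ _ _ hdiff 1]
    apply fderiv_apply_zero_one _ x y _ (hcomp 1)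
    show HasDerivAt (fun t => c * A x * Real.cos (ψ x) * Real.sin (t / c + θ₁ x)) _ y
    have h3 : HasDerivAt (fun t => c * A x * Real.cos (ψ x) * Real.sin (t / c + θ₁ x))
        (c * A x * Real.cos (ψ x) * (Real.cos Θ₁ * (1 / c))) y :=
      hV1.sin.const_mul (c * A x * Real.cos (ψ x))
    have h4 : c * A x * Real.cos (ψ x) * (Real.cos Θ₁ * (1 / c))
        = A x * Real.cos (ψ x) * Real.cos Θ₁ := by
      field_simp
    rw [h4] at h3
    exact h3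
  have hy2' : (fderiv ℝ Φ (x, y) (0, 1)) 2 = -(A x * Real.sin (ψ x) * Real.sin Θ₂) := by
    rw [fderiv_euclidean_apply Φ _ _ hdiff 2]
    apply fderiv_apply_zero_one _ x y _ (hcomp 2)
    show HasDerivAt (fun t => c * A x * Real.sin (ψ x) * Real.cos (t / c + θ₂ x)) _ y
    have h3 : HasDerivAt (fun t => c * A x * Real.sin (ψ x) * Real.cos (t / c + θ₂ x))
        (c * A x * Real.sin (ψ x) * (-Real.sin Θ₂ * (1 / c))) y :=
      hV2.cos.const_mul (c * A x * Real.sin (ψ x))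
    have h4 : c * A x * Real.sin (ψ x) * (-Real.sin Θ₂ * (1 / c))
        = -(A x * Real.sin (ψ x) * Real.sin Θ₂) := by
      field_simp
    rw [h4] at h3
    exact h3
  have hy3' : (fderiv ℝ Φ (x, y) (0, 1)) 3 = A x * Real.sin (ψ x) * Real.cos Θ₂ := by
    rw [fderiv_euclidean_apply Φ _ _ hdiff 3]
    apply fderiv_apply_zero_one _ x y _ (hcomp 3)
    show HasDerivAt (fun t => c * A x * Real.sin (ψ x) * Real.sin (t / c + θ₂ x)) _ y
    have h3 : HasDerivAt (fun t => c * A x * Real.sin (ψ x) * Real.sin (t / c + θ₂ x))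
        (c * A x * Real.sin (ψ x) * (Real.cos Θ₂ * (1 / c))) y :=
      hV2.sin.const_mul (c * A x * Real.sin (ψ x))
    have h4 : c * A x * Real.sin (ψ x) * (Real.cos Θ₂ * (1 / c))
        = A x * Real.sin (ψ x) * Real.cos Θ₂ := by
      field_simp
    rw [h4] at h3
    exact h3
  have hcs1 : Real.cos Θ₁ ^ 2 + Real.sin Θ₁ ^ 2 = 1 := Real.cos_sq_add_sin_sq Θ₁
  have hcs2 : Real.cos Θ₂ ^ 2 + Real.sin Θ₂ ^ 2 = 1 := Real.cos_sq_add_sin_sq Θ₂
  have hcsψ : Real.cos (ψ x) ^ 2 + Real.sin (ψ x) ^ 2 = 1 := Real.cos_sq_add_sin_sq (ψ x)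
  have hmE := metric_E c (A x) (A' x) (ψ' x) (f x) (Q x) (Real.cos (ψ x)) (Real.sin (ψ x))
    (Real.cos Θ₁) (Real.sin Θ₁) (Real.cos Θ₂) (Real.sin Θ₂) hcs1 hcs2 hcsψ
  have hmF := metric_F c (A x) (A' x) (ψ' x) (f x) (Q x) (Real.cos (ψ x)) (Real.sin (ψ x))
    (Real.cos Θ₁) (Real.sin Θ₁) (Real.cos Θ₂) (Real.sin Θ₂) hcs1 hcs2 hcsψ
  have hmG := metric_G (A x) (Real.cos (ψ x)) (Real.sin (ψ x))
    (Real.cos Θ₁) (Real.sin Θ₁) (Real.cos Θ₂) (Real.sin Θ₂) hcs1 hcs2 hcsψ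
  refine ⟨?_, ?_, ?_⟩
  · rw [PiLp.inner_apply, Fin.sum_univ_four]
    simp only [hx0', hx1', hx2', hx3', RCLike.inner_apply, conj_trivial]
    show _ = E x
    linear_combination hmE + hmetE x
  · rw [PiLp.inner_apply, Fin.sum_univ_four]
    simp only [hx0', hx1', hx2', hx3', hy0', hy1', hy2', hy3', RCLike.inner_apply, conj_trivial]
    show _ = F x
    linear_combination hmF + hmetF x
  · rw [PiLp.inner_apply, Fin.sum_univ_four]
    simp only [hy0', hy1', hy2', hy3', RCLike.inner_apply, conj_trivial]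
    show _ = G x
    linear_combination hmG + hmetG x

theorem deriv_periodic (A : ℝ → ℝ) (L : ℝ) (hA : Function.Periodic A L) :
    Function.Periodic (deriv A) L := by
  intro x
  have h1 : deriv (fun y => A (y + L)) x = deriv A (x + L) := deriv_comp_add_const A L x
  have h2 : (fun y => A (y + L)) = A := funext hA
  rw [h2] at h1
  exact h1.symm

/-- Every smooth metric E(u) du^2 + 2 F(u) du dv + G(u) dv^2 on the torus with periods L in u
and P in v whose coefficients depend on u only is induced by a smooth doubly periodic map into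
Euclidean four-space. No condition on the twist is needed. -/
theorem result (E F G : ℝ → ℝ) (L P : ℝ) (hL : 0 < L) (hP : 0 < P)
    (hE : ContDiff ℝ ((⊤ : ℕ∞) : WithTop ℕ∞) E) (hF : ContDiff ℝ ((⊤ : ℕ∞) : WithTop ℕ∞) F)
    (hG : ContDiff ℝ ((⊤ : ℕ∞) : WithTop ℕ∞) G)
    (hpos : ∀ x, 0 < E x ∧ 0 < E x * G x - F x ^ 2)
    (hEper : Function.Periodic E L) (hFper : Function.Periodic F L)
    (hGper : Function.Periodic G L) :
    ∃ Φ : ℝ × ℝ → EuclideanSpace ℝ (Fin 4), ContDiff ℝ ((⊤ : ℕ∞) : WithTop ℕ∞) Φ ∧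
      (∀ q : ℝ × ℝ, Φ (q.1 + L, q.2) = Φ q) ∧ (∀ q : ℝ × ℝ, Φ (q.1, q.2 + P) = Φ q) ∧
      ∀ q : ℝ × ℝ,
        inner ℝ (fderiv ℝ Φ q (1, 0)) (fderiv ℝ Φ q (1, 0)) = E q.1 ∧
        inner ℝ (fderiv ℝ Φ q (1, 0)) (fderiv ℝ Φ q (0, 1)) = F q.1 ∧
        inner ℝ (fderiv ℝ Φ q (0, 1)) (fderiv ℝ Φ q (0, 1)) = G q.1 := by
  have hGpos : ∀ x, 0 < G x := by
    intro x
    obtain ⟨h1, h2⟩ := hpos x
    by_contra h
    push Not at h
    nlinarith [sq_nonneg (F x)]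
  set A : ℝ → ℝ := fun x => Real.sqrt (G x) with hA
  have hAsm : ContDiff ℝ ∞ A := hG.sqrt (fun x => (hGpos x).ne')
  set A' : ℝ → ℝ := deriv A with hA'
  have hA'sm : ContDiff ℝ ∞ A' := (contDiff_infty_iff_deriv.mp hAsm).2
  have hAderiv : ∀ x, HasDerivAt A (A' x) x :=
    fun x => ((contDiff_infty_iff_deriv.mp hAsm).1 x).hasDerivAt
  have hAsq : ∀ x, A x ^ 2 = G x := fun x => Real.sq_sqrt (hGpos x).le
  have hAper : Function.Periodic A L := by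
    intro x
    show Real.sqrt (G (x + L)) = Real.sqrt (G x)
    rw [hGper x]
  have hA'per : Function.Periodic A' L := deriv_periodic A L hAper
  obtain ⟨g, hgsm, hgper, hg01, hg0, hg1⟩ := bump_exists L hL
  set g1 : ℝ → ℝ := deriv g with hg1def
  have hg1sm : ContDiff ℝ ∞ g1 := (contDiff_infty_iff_deriv.mp hgsm).2
  have hgderiv : ∀ x, HasDerivAt g (g1 x) x :=
    fun x => ((contDiff_infty_iff_deriv.mp hgsm).1 x).hasDerivAt
  have hg1per : Function.Periodic g1 L := deriv_periodic g L hgper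
  set f : ℝ → ℝ := fun x => F x / G x with hf
  have hfsm : ContDiff ℝ ∞ f := hF.div hG (fun x => (hGpos x).ne')
  have hfper : Function.Periodic f L := by
    intro x
    show F (x + L) / G (x + L) = F x / G x
    rw [hFper x, hGper x]
  set q : ℝ → ℝ := fun x => (E x * G x - F x ^ 2) / G x ^ 2 with hq
  have hqsm : ContDiff ℝ ∞ q :=
    ((hE.mul hG).sub (hF.pow 2)).div (hG.pow 2) (fun x => pow_ne_zero 2 (hGpos x).ne')
  have hqpos : ∀ x, 0 < q x := fun x => div_pos (hpos x).2 (pow_pos (hGpos x) 2)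
  have hqper : Function.Periodic q L := by
    intro x
    show (E (x + L) * G (x + L) - F (x + L) ^ 2) / G (x + L) ^ 2
      = (E x * G x - F x ^ 2) / G x ^ 2
    rw [hEper x, hFper x, hGper x]
  set a1 : ℝ → ℝ := fun x => A' x ^ 2 / G x with ha1
  have ha1sm : ContDiff ℝ ∞ a1 := (hA'sm.pow 2).div hG (fun x => (hGpos x).ne')
  have ha1nn : ∀ x, 0 ≤ a1 x := fun x => div_nonneg (sq_nonneg _) (hGpos x).le
  have ha1per : Function.Periodic a1 L := by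
    intro x
    show A' (x + L) ^ 2 / G (x + L) = A' x ^ 2 / G x
    rw [hA'per x, hGper x]
  set τ : ℝ := ∫ u in (0:ℝ)..L, f u with hτ
  obtain ⟨k, s, t, m₁, m₂, hk, hψr, hρpos, hcl1, hcl2⟩ := params_exist q a1 g g1 L P τ hL hP
    hqsm.continuous ha1sm.continuous hgsm.continuous hg1sm.continuous hqper ha1per hg1per
    hqpos ha1nn hg01 hg0 hg1
  have hkpos : (0:ℝ) < k := by exact_mod_cast hk
  set c : ℝ := P / (2 * π * k) with hc
  have hcpos : 0 < c := by positivity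
  have hPc : P / c = (k:ℝ) * (2 * π) := by
    rw [hc]
    field_simp
  set ρ : ℝ → ℝ := fun u => q u - c ^ 2 * (a1 u + s ^ 2 * g1 u ^ 2) with hρ
  have hρsm : ContDiff ℝ ∞ ρ :=
    hqsm.sub (contDiff_const.mul (ha1sm.add (contDiff_const.mul (hg1sm.pow 2))))
  have hρper : Function.Periodic ρ L := by
    intro x
    show q (x + L) - c ^ 2 * (a1 (x + L) + s ^ 2 * g1 (x + L) ^ 2)
      = q x - c ^ 2 * (a1 x + s ^ 2 * g1 x ^ 2)
    rw [hqper x, ha1per x, hg1per x]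
  set Q : ℝ → ℝ := fun u => Real.sqrt (ρ u) with hQ
  have hQsm : ContDiff ℝ ∞ Q := hρsm.sqrt (fun x => (hρpos x).ne')
  have hQsq : ∀ x, Q x ^ 2 = ρ x := fun x => Real.sq_sqrt (hρpos x).le
  have hQper : Function.Periodic Q L := by
    intro x
    show Real.sqrt (ρ (x + L)) = Real.sqrt (ρ x)
    rw [hρper x]
  set ψ : ℝ → ℝ := fun u => t + s * g u with hψ
  have hψsm : ContDiff ℝ ∞ ψ := contDiff_const.add (contDiff_const.mul hgsm)
  have hψd : ∀ x, HasDerivAt ψ (s * g1 x) x :=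
    fun x => ((hgderiv x).const_mul s).const_add t
  have hψper : Function.Periodic ψ L := by
    intro x
    show t + s * g (x + L) = t + s * g x
    rw [hgper x]
  have hcosne : ∀ x, Real.cos (ψ x) ≠ 0 := fun x =>
    (Real.cos_pos_of_mem_Ioo ⟨by linarith [(hψr x).1, Real.pi_pos], (hψr x).2⟩).ne'
  have hsinne : ∀ x, Real.sin (ψ x) ≠ 0 := fun x =>
    (Real.sin_pos_of_pos_of_lt_pi (hψr x).1 (by linarith [(hψr x).2, Real.pi_pos])).ne'
  have hcosψ : ContDiff ℝ ∞ (fun x => Real.cos (ψ x)) := Real.contDiff_cos.comp hψsm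
  have hsinψ : ContDiff ℝ ∞ (fun x => Real.sin (ψ x)) := Real.contDiff_sin.comp hψsm
  have hcont1 : Continuous (fun u => Q u * (Real.sin (ψ u) / Real.cos (ψ u))) :=
    (hQsm.mul (hsinψ.div hcosψ hcosne)).continuous
  have hcont2 : Continuous (fun u => Q u * (Real.cos (ψ u) / Real.sin (ψ u))) :=
    (hQsm.mul (hcosψ.div hsinψ hsinne)).continuous
  have hcl1' : τ + ∫ u in (0:ℝ)..L, Q u * (Real.sin (ψ u) / Real.cos (ψ u))
      = m₁ * P / k := hcl1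
  have hcl2' : τ - ∫ u in (0:ℝ)..L, Q u * (Real.cos (ψ u) / Real.sin (ψ u))
      = m₂ * P / k := hcl2
  have hclose1 : ∫ u in (0:ℝ)..L, (f u + Q u * (Real.sin (ψ u) / Real.cos (ψ u))) / c
      = (m₁ : ℝ) * (2 * π) := by
    rw [intervalIntegral.integral_div, intervalIntegral.integral_add
      (hfsm.continuous.intervalIntegrable _ _) (hcont1.intervalIntegrable _ _), hcl1', hc]
    field_simp
  have hclose2 : ∫ u in (0:ℝ)..L, (f u - Q u * (Real.cos (ψ u) / Real.sin (ψ u))) / c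
      = (m₂ : ℝ) * (2 * π) := by
    rw [intervalIntegral.integral_div, intervalIntegral.integral_sub
      (hfsm.continuous.intervalIntegrable _ _) (hcont2.intervalIntegrable _ _), hcl2', hc]
    field_simp
  have hmetE : ∀ x, c ^ 2 * (A' x ^ 2 + A x ^ 2 * (s * g1 x) ^ 2)
      + A x ^ 2 * (f x ^ 2 + Q x ^ 2) = E x := by
    intro x
    rw [hAsq, hQsq]
    show c ^ 2 * (A' x ^ 2 + G x * (s * g1 x) ^ 2)
      + G x * ((F x / G x) ^ 2 + ((E x * G x - F x ^ 2) / G x ^ 2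
        - c ^ 2 * (A' x ^ 2 / G x + s ^ 2 * g1 x ^ 2))) = E x
    have hGx := (hGpos x).ne'
    field_simp
    ring
  have hmetF : ∀ x, A x ^ 2 * f x = F x := by
    intro x
    rw [hAsq]
    show G x * (F x / G x) = F x
    have hGx := (hGpos x).ne'
    field_simp
  exact build E F G L P c k m₁ m₂ A A' ψ (fun x => s * g1 x) f Q hcpos hPc hAsm hAderiv hAper
    hψsm hψd hψper hψr hfsm hfper hQsm hQper hclose1 hclose2 hmetE hmetF hAsq

end Vale.Agent.Results.P205.InvariantToriAllTwists
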